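import Mathlib

open Finset

namespace Vale.Agent.P064

open Classical in
/-- all fibres of a map from a finite group that is compatible with a transitive action have the
same size -/
theorem fibre_count {G X : Type} [Group G] [Fintype G] [Fintype X] (f : G → X)
    (htrans : ∀ x y : X, ∃ σ : G, ∀ g, f g = x → f (σ * g) = y) (S : Finset X) :
    (univ.filter (fun g => f g ∈ S)).card * Fintype.card X = S.card * Fintype.card G := by
  classical
  set a : X → ℕ := fun x => (univ.filter (fun g => f g = x)).card with ha
  have hle : ∀ x y, a x ≤ a y := by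
    intro x y
    obtain ⟨σ, hσ⟩ := htrans x y
    refine Finset.card_le_card_of_injOn (fun g => σ * g) ?_ ?_
    · intro g hg
      have hg' : f g = x := by simpa using hg
      simpa using hσ g hg'
    · intro g _ g' _ h
      exact mul_left_cancel h
  have heq : ∀ x y, a x = a y := fun x y => le_antisymm (hle x y) (hle y x)
  set x0 : X := f 1
  have h1 : Fintype.card G = Fintype.card X * a x0 := by
    have := Finset.card_eq_sum_card_fiberwise (f := f) (s := (univ : Finset G)) (t := (univ : Finset X))
      (fun g _ => by simp)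
    rw [Finset.card_univ] at this
    rw [this]
    rw [Finset.sum_congr rfl (fun x _ => heq x x0)]
    simp [Finset.card_univ]
  have h2 : (univ.filter (fun g => f g ∈ S)).card = S.card * a x0 := by
    have := Finset.card_eq_sum_card_fiberwise (f := f) (s := univ.filter (fun g => f g ∈ S)) (t := S)
      (fun g hg => by simpa using hg)
    rw [this]
    have : ∀ x ∈ S, ((univ.filter (fun g => f g ∈ S)).filter (fun g => f g = x)).card = a x0 := by
      intro x hx
      rw [← heq x x0]
      congr 1
      ext g
      simp only [mem_filter, mem_univ, true_and]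
      constructor
      · exact fun h => h.2
      · exact fun h => ⟨h ▸ hx, h⟩
    rw [Finset.sum_congr rfl this]
    simp
  rw [h1, h2]; ring

theorem fibre_count' {G X : Type} [Group G] [Finite G] [Finite X] (f : G → X)
    (htrans : ∀ x y : X, ∃ σ : G, ∀ g, f g = x → f (σ * g) = y) (S : Set X) :
    Set.ncard {g | f g ∈ S} * Nat.card X = S.ncard * Nat.card G := by
  classical
  have := Fintype.ofFinite G
  have := Fintype.ofFinite X
  have key := fibre_count f htrans S.toFinset
  rw [Nat.card_eq_fintype_card, Nat.card_eq_fintype_card, Set.ncard_eq_toFinset_card' S, ← key]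
  congr 1
  rw [← Set.ncard_coe_finset]
  congr 1
  ext g
  simp

/-- number of permutations of the vertex set mapping `F` into `H` -/
noncomputable def permCount {V : Type} (F H : SimpleGraph V) : ℕ :=
  Set.ncard {π : Equiv.Perm V | ∀ a b, F.Adj a b → H.Adj (π a) (π b)}

/-- number of subgraphs of `G` isomorphic to `F` -/
noncomputable def subCount {V : Type} (G F : SimpleGraph V) : ℕ :=
  Set.ncard {G' : SimpleGraph V | G' ≤ G ∧ Nonempty (G' ≃g F)}

/-- number of embeddings of the vertex subset `W` mapping `F` into `H` -/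
noncomputable def embCount {V : Type} (F H : SimpleGraph V) (W : Finset V) : ℕ :=
  Set.ncard {φ : {v // v ∈ W} ↪ V | ∀ a b : {v // v ∈ W}, F.Adj a b → H.Adj (φ a) (φ b)}

theorem subCount_mul {V : Type} [Finite V] (F H : SimpleGraph V) :
    subCount H F * Nat.card (Equiv.Perm V) = subCount ⊤ F * permCount F H := by
  classical
  let X := {G' : SimpleGraph V // Nonempty (G' ≃g F)}
  let f : Equiv.Perm V → X := fun π => ⟨F.comap π.symm, ⟨SimpleGraph.Iso.comap π.symm F⟩⟩
  have htrans : ∀ x y : X, ∃ σ : Equiv.Perm V, ∀ g, f g = x → f (σ * g) = y := by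
    rintro ⟨G1, ⟨e1⟩⟩ ⟨G2, ⟨e2⟩⟩
    refine ⟨(e1.trans e2.symm).toEquiv, ?_⟩
    intro g hg
    have hg' : F.comap g.symm = G1 := congrArg Subtype.val hg
    apply Subtype.ext
    show F.comap ((e1.trans e2.symm).toEquiv * g).symm = G2
    ext u v
    have h1 : ∀ a b, G1.Adj a b ↔ F.Adj (g.symm a) (g.symm b) := by
      intro a b; rw [← hg']; rfl
    have h2 : G1.Adj ((e1.trans e2.symm).symm u) ((e1.trans e2.symm).symm v) ↔ G2.Adj u v :=
      (e1.trans e2.symm).symm.map_rel_iff
    rw [← h2, h1]
    rfl
  have key := fibre_count' f htrans {x : X | x.1 ≤ H}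
  have c1 : Set.ncard {g | f g ∈ {x : X | x.1 ≤ H}} = permCount F H := by
    rw [permCount]
    congr 1
    ext π
    constructor
    · intro h a b hab
      have := @h (π a) (π b) (by show F.Adj (π.symm (π a)) (π.symm (π b)); simpa using hab)
      exact this
    · intro h u v huv
      have huv' : F.Adj (π.symm u) (π.symm v) := huv
      simpa using h _ _ huv'
  have c2 : Nat.card X = subCount ⊤ F := by
    rw [subCount]
    simp only [le_top, true_and]
    exact Nat.card_coe_set_eq _
  have c3 : Set.ncard {x : X | x.1 ≤ H} = subCount H F := by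
    rw [subCount,
      ← Set.ncard_image_of_injective _ (Subtype.val_injective (p := fun G' : SimpleGraph V => Nonempty (G' ≃g F)))]
    congr 1
    ext G'
    constructor
    · rintro ⟨x, hx, rfl⟩
      exact ⟨hx, x.2⟩
    · rintro ⟨h1, h2⟩
      exact ⟨⟨G', h2⟩, h1, rfl⟩
  rw [c1, c2, c3] at key
  rw [← key]; ring

theorem permCount_mul {V : Type} [Finite V] (F H : SimpleGraph V) (W : Finset V)
    (hW : ∀ a b, F.Adj a b → a ∈ W) :
    permCount F H * Nat.card ({v // v ∈ W} ↪ V)
      = embCount F H W * Nat.card (Equiv.Perm V) := by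
  classical
  let f : Equiv.Perm V → ({v // v ∈ W} ↪ V) :=
    fun π => (Function.Embedding.subtype _).trans π.toEmbedding
  have htrans : ∀ x y : ({v // v ∈ W} ↪ V), ∃ σ : Equiv.Perm V, ∀ g, f g = x → f (σ * g) = y := by
    intro x y
    obtain ⟨σ, hσ⟩ := Equiv.Perm.exists_extending_pair x y x.injective y.injective
    refine ⟨σ, fun g hg => ?_⟩
    ext a
    have : g a = x a := by rw [← hg]; rfl
    show σ (g a) = y a
    rw [this, hσ]
  have key := fibre_count' f htrans
    {φ : ({v // v ∈ W} ↪ V) | ∀ a b : {v // v ∈ W}, F.Adj a b → H.Adj (φ a) (φ b)}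
  have c1 : Set.ncard {g | f g ∈ {φ : ({v // v ∈ W} ↪ V) |
      ∀ a b : {v // v ∈ W}, F.Adj a b → H.Adj (φ a) (φ b)}} = permCount F H := by
    rw [permCount]
    congr 1
    ext π
    constructor
    · intro h a b hab
      exact h ⟨a, hW a b hab⟩ ⟨b, hW b a hab.symm⟩ hab
    · intro h a b hab
      exact h _ _ hab
  rw [c1] at key
  exact key

end Vale.Agent.P064
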