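import Mathlib
import Vale.Agent.P064.Perm

open Finset

namespace Vale.Agent.P064

/-- restriction of an embedding of a vertex subset -/
def restr {V : Type} {W W' : Finset V} (h : W' ⊆ W) (φ : {v // v ∈ W} ↪ V) : {v // v ∈ W'} ↪ V :=
  ⟨fun v => φ ⟨v.1, h v.2⟩, fun a b hab => by
    have := φ.injective hab
    exact Subtype.ext (Subtype.mk.inj this)⟩

/-- number of embeddings of a star with centre `c` and leaf set `S` into `H` -/
noncomputable def starEmb {V : Type} [DecidableEq V] (H : SimpleGraph V) (c : V) (S : Finset V) : ℕ :=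
  Set.ncard {ψ : {v // v ∈ insert c S} ↪ V | ∀ s (hs : s ∈ S),
    H.Adj (ψ ⟨c, mem_insert_self c S⟩) (ψ ⟨s, mem_insert_of_mem hs⟩)}

theorem starEmb_le {n : ℕ} (H : SimpleGraph (Fin n)) (c : Fin n) (S : Finset (Fin n)) :
    starEmb H c S ≤ S.card.factorial * ∑ v, ((H.neighborSet v).ncard).choose S.card := by
  classical
  rw [starEmb, ← Nat.card_coe_set_eq]
  let T := Σ x : Fin n, ({s // s ∈ S} ↪ {y // H.Adj x y})
  let A := {ψ : {v // v ∈ insert c S} ↪ Fin n | ∀ s (hs : s ∈ S),
    H.Adj (ψ ⟨c, mem_insert_self c S⟩) (ψ ⟨s, mem_insert_of_mem hs⟩)}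
  let g : A → T := fun ψ => ⟨ψ.1 ⟨c, mem_insert_self c S⟩,
    ⟨fun s => ⟨ψ.1 ⟨s.1, mem_insert_of_mem s.2⟩, ψ.2 s.1 s.2⟩, fun a b hab => by
      have h1 : ψ.1 ⟨a.1, mem_insert_of_mem a.2⟩ = ψ.1 ⟨b.1, mem_insert_of_mem b.2⟩ :=
        congrArg Subtype.val hab
      have := ψ.1.injective h1
      exact Subtype.ext (Subtype.mk.inj this)⟩⟩
  let pr : T → Fin n × ({s // s ∈ S} → Fin n) := fun x => (x.1, fun s => (x.2 s).1)
  have hg : Function.Injective g := by
    apply Function.Injective.of_comp (f := pr)
    intro ψ ψ' h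
    have h1 : ψ.1 ⟨c, mem_insert_self c S⟩ = ψ'.1 ⟨c, mem_insert_self c S⟩ := congrArg Prod.fst h
    have h2 : (fun s : {s // s ∈ S} => ψ.1 ⟨s.1, mem_insert_of_mem s.2⟩)
        = (fun s : {s // s ∈ S} => ψ'.1 ⟨s.1, mem_insert_of_mem s.2⟩) := congrArg Prod.snd h
    apply Subtype.ext
    apply Function.Embedding.ext
    rintro ⟨v, hv⟩
    rcases mem_insert.mp hv with rfl | hvS
    · exact h1
    · exact congrFun h2 ⟨v, hvS⟩
  calc Nat.card A ≤ Nat.card T := Nat.card_le_card_of_injective g hg
    _ = ∑ x : Fin n, ((H.neighborSet x).ncard).descFactorial S.card := by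
        rw [Nat.card_eq_fintype_card, Fintype.card_sigma]
        refine Finset.sum_congr rfl fun x _ => ?_
        rw [Fintype.card_embedding_eq, Fintype.card_coe, ← Nat.card_eq_fintype_card]
        congr 1
    _ = S.card.factorial * ∑ v, ((H.neighborSet v).ncard).choose S.card := by
        rw [Finset.mul_sum]
        exact Finset.sum_congr rfl fun x _ => Nat.descFactorial_eq_factorial_mul_choose _ _

theorem embCount_le_mul {V : Type} [Fintype V] [DecidableEq V] (F F' H : SimpleGraph V)
    (W : Finset V) (c : V) (S : Finset V)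
    (hX : insert c S ⊆ W) (hF' : F' ≤ F) (hS : ∀ s ∈ S, F.Adj c s) :
    embCount F H W ≤ embCount F' H (W \ insert c S) * starEmb H c S := by
  rw [embCount, embCount, starEmb, ← Set.ncard_prod]
  refine Set.ncard_le_ncard_of_injOn
    (fun φ => (restr (sdiff_subset : W \ insert c S ⊆ W) φ, restr hX φ)) ?_ ?_ (Set.toFinite _)
  · intro φ hφ
    refine ⟨?_, ?_⟩
    · intro a b hab
      exact hφ ⟨a.1, sdiff_subset a.2⟩ ⟨b.1, sdiff_subset b.2⟩ (hF' hab)
    · intro s hs
      exact hφ ⟨c, hX (mem_insert_self c S)⟩ ⟨s, hX (mem_insert_of_mem hs)⟩ (hS s hs)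
  · intro φ _ φ' _ h
    have h1 : restr (sdiff_subset : W \ insert c S ⊆ W) φ = restr sdiff_subset φ' :=
      congrArg Prod.fst h
    have h2 : restr hX φ = restr hX φ' := congrArg Prod.snd h
    apply Function.Embedding.ext
    rintro ⟨v, hv⟩
    by_cases hvX : v ∈ insert c S
    · exact DFunLike.congr_fun h2 ⟨v, hvX⟩
    · exact DFunLike.congr_fun h1 ⟨v, mem_sdiff.mpr ⟨hv, hvX⟩⟩

theorem edges_split {n : ℕ} (F : SimpleGraph (Fin n)) (c : Fin n) :
    F.edgeSet.ncard = (F.deleteIncidenceSet c).edgeSet.ncard
      + (F.neighborSet c).ncard := by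
  classical
  have h1 : F.edgeSet.ncard = F.edgeFinset.card := Set.ncard_eq_toFinset_card' _
  have h2 : (F.deleteIncidenceSet c).edgeSet.ncard = (F.deleteIncidenceSet c).edgeFinset.card :=
    Set.ncard_eq_toFinset_card' _
  have h3 := F.card_edgeFinset_deleteIncidenceSet c
  have h4 : F.degree c ≤ F.edgeFinset.card := by
    rw [← F.card_incidenceFinset_eq_degree]
    exact card_le_card (F.incidenceFinset_subset c)
  have h5 : (F.neighborSet c).ncard = F.degree c := by
    rw [← F.card_neighborFinset_eq_degree]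
    exact Set.ncard_eq_toFinset_card' _
  rw [h1, h2, h5]
  omega

/-- every edge has an endpoint of degree one: every component is a star or an isolated vertex -/
def IsStarForest {V : Type} (F : SimpleGraph V) : Prop :=
  ∀ a b, F.Adj a b → (∀ x, F.Adj a x → x = b) ∨ (∀ x, F.Adj b x → x = a)

theorem emb_bound {n : ℕ} (H : SimpleGraph (Fin n)) (p : ℝ) (hp : 0 ≤ p)
    (hstar : ∀ t, 1 ≤ t → ((∑ v, ((H.neighborSet v).ncard).choose t : ℕ) : ℝ)
      ≤ (n : ℝ) * ((n - 1).choose t : ℝ) * p ^ t) :
    ∀ (m : ℕ) (F : SimpleGraph (Fin n)) (W : Finset (Fin n)), IsStarForest F →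
      F.edgeSet.ncard = m → (∀ a b, F.Adj a b → a ∈ W) →
      (embCount F H W : ℝ) ≤ (n : ℝ) ^ W.card * p ^ m := by
  classical
  intro m
  induction m using Nat.strong_induction_on with
  | _ m ih =>
    intro F W hF hm hW
    by_cases hne : ∃ a b, F.Adj a b
    · obtain ⟨a, b, hab⟩ := hne
      obtain ⟨c, l, hcl, hl⟩ : ∃ c l, F.Adj c l ∧ ∀ x, F.Adj l x → x = c := by
        rcases hF a b hab with h | h
        · exact ⟨b, a, hab.symm, h⟩
        · exact ⟨a, b, hab, h⟩
      set S : Finset (Fin n) := (F.neighborSet c).toFinset with hS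
      have hSmem : ∀ s, s ∈ S ↔ F.Adj c s := by intro s; simp [hS]
      have hleaf : ∀ s ∈ S, ∀ x, F.Adj s x → x = c := by
        intro s hs x hsx
        rcases hF c s ((hSmem s).mp hs) with h | h
        · have : l = s := h l hcl
          subst this; exact hl x hsx
        · exact h x hsx
      set F' := F.deleteIncidenceSet c with hF'
      have hF'le : F' ≤ F := F.deleteIncidenceSet_le c
      have hF'star : IsStarForest F' := by
        intro u v huv
        rcases hF u v (hF'le huv) with h | h
        · exact Or.inl fun x hx => h x (hF'le hx)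
        · exact Or.inr fun x hx => h x (hF'le hx)
      have ht : 1 ≤ S.card := Finset.card_pos.mpr ⟨l, (hSmem l).mpr hcl⟩
      have hScard : (F.neighborSet c).ncard = S.card := Set.ncard_eq_toFinset_card' _
      have hsplit := edges_split F c
      rw [hm, hScard] at hsplit
      set m' := F'.edgeSet.ncard with hm'
      have hX : insert c S ⊆ W := by
        intro v hv
        rcases mem_insert.mp hv with rfl | hv
        · exact hW _ _ hcl
        · exact hW _ _ ((hSmem v).mp hv).symm
      have hcS : c ∉ S := fun h => ((hSmem c).mp h).ne rfl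
      have hW' : ∀ u v, F'.Adj u v → u ∈ W \ insert c S := by
        intro u v huv
        rw [hF', SimpleGraph.deleteIncidenceSet_adj] at huv
        refine mem_sdiff.mpr ⟨hW _ _ huv.1, fun hu => ?_⟩
        rcases mem_insert.mp hu with rfl | hu
        · exact huv.2.1 rfl
        · exact huv.2.2 (hleaf u hu v huv.1)
      have ih' := ih m' (by omega) F' (W \ insert c S) hF'star rfl hW'
      have hmul := embCount_le_mul F F' H W c S hX hF'le (fun s hs => (hSmem s).mp hs)
      have hse := starEmb_le H c S
      have hst := hstar S.card ht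
      have hcardW : (W \ insert c S).card + (S.card + 1) = W.card := by
        have h1 := card_sdiff_add_card_eq_card hX
        rw [card_insert_of_notMem hcS] at h1
        exact h1
      have hfac : ((S.card.factorial : ℝ) * ((n - 1).choose S.card : ℝ)) ≤ (n : ℝ) ^ S.card := by
        have h1 : S.card.factorial * (n - 1).choose S.card ≤ n ^ S.card := by
          rw [← Nat.descFactorial_eq_factorial_mul_choose]
          exact (Nat.descFactorial_le_pow _ _).trans (Nat.pow_le_pow_left (Nat.sub_le n 1) _)
        exact_mod_cast h1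
      have hse' : (starEmb H c S : ℝ) ≤ (S.card.factorial : ℝ)
          * ((n : ℝ) * ((n - 1).choose S.card : ℝ) * p ^ S.card) := by
        calc (starEmb H c S : ℝ)
            ≤ ((S.card.factorial * ∑ v, ((H.neighborSet v).ncard).choose S.card : ℕ) : ℝ) := by
              exact_mod_cast hse
          _ = (S.card.factorial : ℝ) * ((∑ v, ((H.neighborSet v).ncard).choose S.card : ℕ) : ℝ) := by
              push_cast; ring
          _ ≤ _ := by gcongr
      calc (embCount F H W : ℝ)
          ≤ (embCount F' H (W \ insert c S) : ℝ) * (starEmb H c S : ℝ) := by exact_mod_cast hmul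
        _ ≤ ((n : ℝ) ^ (W \ insert c S).card * p ^ m') * ((S.card.factorial : ℝ)
              * ((n : ℝ) * ((n - 1).choose S.card : ℝ) * p ^ S.card)) := by
            gcongr
        _ = ((n : ℝ) ^ (W \ insert c S).card * n)
              * ((S.card.factorial : ℝ) * ((n - 1).choose S.card : ℝ)) * (p ^ m' * p ^ S.card) := by
            ring
        _ ≤ ((n : ℝ) ^ (W \ insert c S).card * n) * (n : ℝ) ^ S.card * (p ^ m' * p ^ S.card) := by
            gcongr
        _ = (n : ℝ) ^ W.card * p ^ m := by rw [← hcardW, hsplit]; ring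
    · have hbot : F = ⊥ := by
        ext u v
        simp only [SimpleGraph.bot_adj, iff_false]
        exact fun h => hne ⟨u, v, h⟩
      have hm0 : m = 0 := by
        rw [← hm, hbot]; simp
      rw [hm0, pow_zero, mul_one]
      have h1 : embCount F H W ≤ n ^ W.card := by
        calc embCount F H W ≤ Set.ncard (Set.univ : Set ({v // v ∈ W} ↪ Fin n)) :=
              Set.ncard_le_ncard (Set.subset_univ _) (Set.toFinite _)
          _ = n.descFactorial W.card := by
              rw [Set.ncard_univ, Nat.card_eq_fintype_card, Fintype.card_embedding_eq,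
                Fintype.card_coe, Fintype.card_fin]
          _ ≤ n ^ W.card := Nat.descFactorial_le_pow _ _
      exact_mod_cast h1

end Vale.Agent.P064
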