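import Mathlib
import Vale.Agent.P064.Forest

open Finset

namespace Vale.Agent.P064

/-- an acyclic graph with an edge has a leaf -/
theorem exists_leaf {V : Type} [Finite V] (F : SimpleGraph V) (hF : F.IsAcyclic) {a b : V}
    (hab : F.Adj a b) : ∃ l z, F.Adj l z ∧ ∀ x, F.Adj l x → x = z := by
  have : Nonempty V := ⟨a⟩
  obtain ⟨u, v, p, hp, hmax⟩ := SimpleGraph.Walk.exists_isPath_forall_isPath_length_le_length F
  have hnil : ¬p.Nil := by
    have h1 : (SimpleGraph.Walk.cons hab SimpleGraph.Walk.nil).IsPath := by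
      simp [SimpleGraph.Walk.cons_isPath_iff, hab.ne]
    have h2 := hmax _ _ _ h1
    intro hn
    have h3 : p.length = 0 := SimpleGraph.Walk.length_eq_zero_iff.mpr hn
    simp at h2
    omega
  refine ⟨u, _, p.adj_snd hnil, fun w hadj => ?_⟩
  apply hF.eq_snd_of_adj_start hp hadj
  by_contra hw
  have h4 : (p.cons hadj.symm).IsPath := hp.cons hw
  have h5 := hmax _ _ _ h4
  simp at h5

theorem embCount_eq_card {V : Type} [Fintype V] [DecidableEq V] (F H : SimpleGraph V)
    [DecidableRel F.Adj] [DecidableRel H.Adj] (W : Finset V) :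
    embCount F H W = (univ.filter (fun φ : {v // v ∈ W} ↪ V =>
      ∀ a b : {v // v ∈ W}, F.Adj a b → H.Adj (φ a) (φ b))).card := by
  rw [embCount, ← Set.ncard_coe_finset]
  congr 1
  ext φ
  simp

theorem embCount_le_leaf {V : Type} [Fintype V] [DecidableEq V] (F F' H : SimpleGraph V)
    (W : Finset V) (l z : V) (hl : l ∈ W) (hz : z ∈ W) (hlz : F.Adj l z) (hF' : F' ≤ F)
    (Δ : ℕ) (hΔ : ∀ v, (H.neighborSet v).ncard ≤ Δ) :
    embCount F H W ≤ Δ * embCount F' H (W.erase l) := by
  classical
  rw [embCount_eq_card, embCount_eq_card]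
  set A := univ.filter (fun φ : {v // v ∈ W} ↪ V =>
      ∀ a b : {v // v ∈ W}, F.Adj a b → H.Adj (φ a) (φ b)) with hA
  set A' := univ.filter (fun φ : {v // v ∈ W.erase l} ↪ V =>
      ∀ a b : {v // v ∈ W.erase l}, F'.Adj a b → H.Adj (φ a) (φ b)) with hA'
  have hzl : z ∈ W.erase l := mem_erase.mpr ⟨hlz.ne', hz⟩
  have h1 : A.card ≤ Δ * (A.image (restr (erase_subset l W))).card := by
    refine Finset.card_le_mul_card_image A Δ ?_
    intro b _
    calc (A.filter (fun φ => restr (erase_subset l W) φ = b)).card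
        ≤ (H.neighborSet (b ⟨z, hzl⟩)).toFinset.card := by
          refine Finset.card_le_card_of_injOn (fun φ => φ ⟨l, hl⟩) ?_ ?_
          · intro φ hφ
            have hφ' := mem_filter.mp (Finset.mem_coe.mp hφ)
            have hgood := (mem_filter.mp hφ'.1).2
            have hb : b ⟨z, hzl⟩ = φ ⟨z, hz⟩ := by rw [← hφ'.2]; rfl
            simp only [Set.coe_toFinset, SimpleGraph.mem_neighborSet]
            rw [hb]
            exact hgood ⟨z, hz⟩ ⟨l, hl⟩ hlz.symm
          · intro φ hφ φ' hφ' h
            have h2 := (mem_filter.mp (Finset.mem_coe.mp hφ)).2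
            have h3 := (mem_filter.mp (Finset.mem_coe.mp hφ')).2
            apply Function.Embedding.ext
            rintro ⟨v, hv⟩
            by_cases hvl : v = l
            · subst hvl; exact h
            · have h4 : restr (erase_subset l W) φ = restr (erase_subset l W) φ' := h2.trans h3.symm
              exact DFunLike.congr_fun h4 ⟨v, mem_erase.mpr ⟨hvl, hv⟩⟩
      _ = (H.neighborSet (b ⟨z, hzl⟩)).ncard := (Set.ncard_eq_toFinset_card' _).symm
      _ ≤ Δ := hΔ _
  have h2 : (A.image (restr (erase_subset l W))).card ≤ A'.card := by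
    refine card_le_card ?_
    intro b hb
    obtain ⟨φ, hφ, rfl⟩ := mem_image.mp hb
    have hgood := (mem_filter.mp hφ).2
    refine mem_filter.mpr ⟨mem_univ _, ?_⟩
    intro a c hac
    exact hgood ⟨a.1, erase_subset l W a.2⟩ ⟨c.1, erase_subset l W c.2⟩ (hF' hac)
  calc A.card ≤ Δ * (A.image (restr (erase_subset l W))).card := h1
    _ ≤ Δ * A'.card := Nat.mul_le_mul_left _ h2

theorem emb_bound_forest {n : ℕ} (H : SimpleGraph (Fin n)) (Δ : ℕ)
    (hΔ : ∀ v, (H.neighborSet v).ncard ≤ Δ) :
    ∀ (m : ℕ) (F : SimpleGraph (Fin n)) (W : Finset (Fin n)), F.IsAcyclic →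
      F.edgeSet.ncard = m → (∀ a b, F.Adj a b → a ∈ W) →
      embCount F H W * n ^ m ≤ n ^ W.card * Δ ^ m := by
  classical
  intro m
  induction m with
  | zero =>
    intro F W _ _ _
    rw [pow_zero, pow_zero, mul_one, mul_one]
    calc embCount F H W ≤ Set.ncard (Set.univ : Set ({v // v ∈ W} ↪ Fin n)) :=
          Set.ncard_le_ncard (Set.subset_univ _) (Set.toFinite _)
      _ = n.descFactorial W.card := by
          rw [Set.ncard_univ, Nat.card_eq_fintype_card, Fintype.card_embedding_eq,
            Fintype.card_coe, Fintype.card_fin]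
      _ ≤ n ^ W.card := Nat.descFactorial_le_pow _ _
  | succ m ih =>
    intro F W hF hm hW
    have hne : ∃ a b, F.Adj a b := by
      by_contra hne
      have hbot : F = ⊥ := by
        ext u v
        simp only [SimpleGraph.bot_adj, iff_false]
        exact fun h => hne ⟨u, v, h⟩
      rw [hbot] at hm
      simp at hm
    obtain ⟨a, b, hab⟩ := hne
    obtain ⟨l, z, hlz, hleaf⟩ := exists_leaf F hF hab
    set F' := F.deleteIncidenceSet l with hF'
    have hF'le : F' ≤ F := F.deleteIncidenceSet_le l
    have hnb : (F.neighborSet l).ncard = 1 := by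
      have : F.neighborSet l = {z} := by
        ext x
        simp only [SimpleGraph.mem_neighborSet, Set.mem_singleton_iff]
        exact ⟨hleaf x, fun h => h ▸ hlz⟩
      rw [this, Set.ncard_singleton]
    have hsplit := edges_split F l
    rw [hm, hnb] at hsplit
    have hm' : F'.edgeSet.ncard = m := by rw [hF']; omega
    have hlW : l ∈ W := hW _ _ hlz
    have hzW : z ∈ W := hW _ _ hlz.symm
    have hW' : ∀ u v, F'.Adj u v → u ∈ W.erase l := by
      intro u v huv
      rw [hF', SimpleGraph.deleteIncidenceSet_adj] at huv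
      exact mem_erase.mpr ⟨huv.2.1, hW _ _ huv.1⟩
    have ih' := ih F' (W.erase l) (hF.anti hF'le) hm' hW'
    have hstep := embCount_le_leaf F F' H W l z hlW hzW hlz hF'le Δ hΔ
    have hcard : (W.erase l).card + 1 = W.card := card_erase_add_one hlW
    calc embCount F H W * n ^ (m + 1)
        ≤ (Δ * embCount F' H (W.erase l)) * n ^ (m + 1) := Nat.mul_le_mul_right _ hstep
      _ = Δ * n * (embCount F' H (W.erase l) * n ^ m) := by ring
      _ ≤ Δ * n * (n ^ (W.erase l).card * Δ ^ m) := Nat.mul_le_mul_left _ ih'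
      _ = n ^ ((W.erase l).card + 1) * Δ ^ (m + 1) := by ring
      _ = n ^ W.card * Δ ^ (m + 1) := by rw [hcard]

end Vale.Agent.P064
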