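import Mathlib

open Finset

namespace Vale.Agent.P064

/-- `C(d,t) m^t ≤ C(m,t) d^t` for `d ≤ m` -/
theorem desc_ratio (d m : ℕ) (h : d ≤ m) (t : ℕ) :
    d.descFactorial t * m ^ t ≤ m.descFactorial t * d ^ t := by
  induction t with
  | zero => simp
  | succ t ih =>
    rw [Nat.descFactorial_succ, Nat.descFactorial_succ, pow_succ, pow_succ]
    have h1 : (d - t) * m ≤ (m - t) * d := by
      rcases le_or_gt t d with htd | htd
      · obtain ⟨a, rfl⟩ := Nat.exists_eq_add_of_le htd
        obtain ⟨b, rfl⟩ := Nat.exists_eq_add_of_le h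
        have e1 : t + a - t = a := by omega
        have e2 : t + a + b - t = a + b := by omega
        rw [e1, e2]
        nlinarith [Nat.zero_le (t * b)]
      · have : d - t = 0 := by omega
        rw [this, zero_mul]; exact Nat.zero_le _
    calc (d - t) * d.descFactorial t * (m ^ t * m)
        = ((d - t) * m) * (d.descFactorial t * m ^ t) := by ring
      _ ≤ ((m - t) * d) * (m.descFactorial t * d ^ t) := Nat.mul_le_mul h1 ih
      _ = (m - t) * m.descFactorial t * (d ^ t * d) := by ring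

theorem choose_ratio (d m : ℕ) (h : d ≤ m) (hm : 0 < m) (t : ℕ) :
    (d.choose t : ℝ) ≤ (m.choose t : ℝ) * ((d : ℝ) / m) ^ t := by
  have h1 := desc_ratio d m h t
  rw [Nat.descFactorial_eq_factorial_mul_choose, Nat.descFactorial_eq_factorial_mul_choose] at h1
  have h2 : d.choose t * m ^ t ≤ m.choose t * d ^ t := by
    have : t.factorial * (d.choose t * m ^ t) ≤ t.factorial * (m.choose t * d ^ t) := by
      calc t.factorial * (d.choose t * m ^ t) = t.factorial * d.choose t * m ^ t := by ring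
        _ ≤ t.factorial * m.choose t * d ^ t := h1
        _ = t.factorial * (m.choose t * d ^ t) := by ring
    exact Nat.le_of_mul_le_mul_left this (Nat.factorial_pos t)
  have h3 : (d.choose t : ℝ) * (m : ℝ) ^ t ≤ (m.choose t : ℝ) * (d : ℝ) ^ t := by exact_mod_cast h2
  have hm' : (0 : ℝ) < (m : ℝ) ^ t := by positivity
  rw [div_pow, mul_div_assoc', le_div_iff₀ hm']
  exact h3

/-- `s! ≤ X^s` forces `s ≤ e X` -/
theorem le_of_factorial_le (s : ℕ) (X : ℝ) (hX : 0 ≤ X) (h : (s.factorial : ℝ) ≤ X ^ s) :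
    (s : ℝ) ≤ Real.exp 1 * X := by
  rcases Nat.eq_zero_or_pos s with rfl | hs
  · simp; positivity
  have h1 := Real.pow_div_factorial_le_exp (x := (s : ℝ)) (by positivity) s
  have hf : (0 : ℝ) < (s.factorial : ℝ) := by exact_mod_cast Nat.factorial_pos s
  rw [div_le_iff₀ hf] at h1
  have h2 : (s : ℝ) ^ s ≤ (Real.exp 1 * X) ^ s := by
    calc (s : ℝ) ^ s ≤ Real.exp s * s.factorial := h1
      _ ≤ Real.exp s * X ^ s := by gcongr
      _ = (Real.exp 1 * X) ^ s := by
          rw [mul_pow, ← Real.exp_nat_mul, mul_one]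
  exact le_of_pow_le_pow_left₀ hs.ne' (by positivity) h2

/-- `θ^D / D! ≤ (e θ / D)^D` -/
theorem pow_div_factorial_le (D : ℕ) (hD : 0 < D) (θ : ℝ) (hθ : 0 ≤ θ) :
    θ ^ D / (D.factorial : ℝ) ≤ (Real.exp 1 * θ / D) ^ D := by
  have h1 := Real.pow_div_factorial_le_exp (x := (D : ℝ)) (by positivity) D
  have hf : (0 : ℝ) < (D.factorial : ℝ) := by exact_mod_cast Nat.factorial_pos D
  have hD' : (0 : ℝ) < (D : ℝ) ^ D := by positivity
  rw [div_le_iff₀ hf] at h1
  rw [div_pow, mul_pow, div_le_div_iff₀ hf hD', ← Real.exp_nat_mul, mul_one]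
  calc θ ^ D * (D : ℝ) ^ D ≤ θ ^ D * (Real.exp D * D.factorial) := by gcongr
    _ = Real.exp D * θ ^ D * D.factorial := by ring

end Vale.Agent.P064
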