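import Mathlib

open Finset

namespace Vale.Agent.P064

variable {V : Type*} [Fintype V] [DecidableEq V]

/-- the union of the stars `(centre, leaf set)` of the family `P` -/
def starGraph (P : Finset (V × Finset V)) : SimpleGraph V :=
  SimpleGraph.fromRel (fun a b => ∃ p ∈ P, a = p.1 ∧ b ∈ p.2)

theorem starGraph_adj (P : Finset (V × Finset V)) (a b : V) :
    (starGraph P).Adj a b ↔ a ≠ b ∧ ((∃ p ∈ P, a = p.1 ∧ b ∈ p.2) ∨ (∃ p ∈ P, b = p.1 ∧ a ∈ p.2)) := by
  unfold starGraph
  rw [SimpleGraph.fromRel_adj]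

/-- transport of a star family by a permutation -/
def moveFam (σ : V ≃ V) (P : Finset (V × Finset V)) : Finset (V × Finset V) :=
  P.image (fun p => (σ p.1, p.2.image σ))

theorem rel_move (σ : V ≃ V) (P : Finset (V × Finset V)) (a b : V) :
    (∃ p ∈ moveFam σ P, a = p.1 ∧ b ∈ p.2) ↔ (∃ p ∈ P, σ.symm a = p.1 ∧ σ.symm b ∈ p.2) := by
  unfold moveFam
  constructor
  · rintro ⟨p, hp, rfl, hb⟩
    obtain ⟨p0, hp0, rfl⟩ := Finset.mem_image.mp hp
    obtain ⟨y, hy, rfl⟩ := Finset.mem_image.mp hb
    exact ⟨p0, hp0, by simp, by simpa using hy⟩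
  · rintro ⟨p, hp, h1, h2⟩
    refine ⟨(σ p.1, p.2.image σ), Finset.mem_image.mpr ⟨p, hp, rfl⟩, ?_, ?_⟩
    · simp [← h1]
    · exact Finset.mem_image.mpr ⟨σ.symm b, h2, by simp⟩

theorem eq_of_iso (P : Finset (V × Finset V)) (G : SimpleGraph V) (φ : G ≃g starGraph P) :
    G = starGraph (moveFam φ.toEquiv.symm P) := by
  ext a b
  rw [← φ.map_adj_iff, starGraph_adj, starGraph_adj, rel_move, rel_move]
  simp only [Equiv.symm_symm]
  constructor
  · rintro ⟨h1, h2⟩
    exact ⟨fun h => h1 (by rw [h]), h2⟩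
  · rintro ⟨h1, h2⟩
    exact ⟨fun h => h1 (φ.injective h), h2⟩

theorem copies_le (P : Finset (V × Finset V)) (s D : ℕ) (hs : P.card = s)
    (hD : ∀ p ∈ P, p.2.card = D) :
    Set.ncard {G : SimpleGraph V | Nonempty (G ≃g starGraph P)}
      ≤ (Fintype.card V * (Fintype.card V).choose D).choose s := by
  set Q : Finset (V × Finset V) := univ ×ˢ powersetCard D univ with hQ
  have hQc : Q.card = Fintype.card V * (Fintype.card V).choose D := by
    rw [hQ, card_product, card_powersetCard, card_univ]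
  have hsub : {G : SimpleGraph V | Nonempty (G ≃g starGraph P)}
      ⊆ starGraph '' (↑(powersetCard s Q) : Set (Finset (V × Finset V))) := by
    rintro G ⟨φ⟩
    refine ⟨moveFam φ.toEquiv.symm P, ?_, (eq_of_iso P G φ).symm⟩
    rw [Finset.mem_coe, mem_powersetCard]
    constructor
    · intro p hp
      obtain ⟨p0, hp0, rfl⟩ := Finset.mem_image.mp hp
      rw [hQ, mem_product, mem_powersetCard]
      refine ⟨mem_univ _, subset_univ _, ?_⟩
      rw [card_image_of_injective _ (Equiv.injective _)]
      exact hD p0 hp0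
    · unfold moveFam
      rw [card_image_of_injective, hs]
      intro p p' h
      simp only [Prod.mk.injEq] at h
      exact Prod.ext ((Equiv.injective _) h.1) (Finset.image_injective (Equiv.injective _) h.2)
  calc Set.ncard {G : SimpleGraph V | Nonempty (G ≃g starGraph P)}
      ≤ Set.ncard (starGraph '' (↑(powersetCard s Q) : Set (Finset (V × Finset V)))) :=
        Set.ncard_le_ncard hsub (Set.toFinite _)
    _ ≤ Set.ncard (↑(powersetCard s Q) : Set (Finset (V × Finset V))) :=
        Set.ncard_image_le (Set.toFinite _)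
    _ = (Fintype.card V * (Fintype.card V).choose D).choose s := by
        rw [Set.ncard_coe_finset, card_powersetCard, hQc]

end Vale.Agent.P064
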