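import Mathlib
import Vale.Agent.P064.Arith
import Vale.Agent.P064.Copies

open Finset

namespace Vale.Agent.P064

variable {V : Type*} [Fintype V] [DecidableEq V]

theorem high_degree_bound (H : SimpleGraph V) (q : ℝ) (hq0 : 0 ≤ q) (hq1 : q ≤ 1)
    (hyp : ∀ F : SimpleGraph V, F ≤ H →
      1 / 2 ≤ (Set.ncard {G : SimpleGraph V | Nonempty (G ≃g F)} : ℝ) * q ^ F.edgeSet.ncard)
    (c : V → Bool) (B : V → Finset V) (hB : ∀ v u, u ∈ B v → H.Adj v u ∧ c u = false)
    (S : Finset V) (D : ℕ) (hS : ∀ v ∈ S, c v = true ∧ D ≤ (B v).card) :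
    (S.card : ℝ) ≤ 2 * (Real.exp 1 *
      ((Fintype.card V : ℝ) * ((Fintype.card V).choose D : ℝ) * q ^ D)) := by
  have hN : ∀ v, ∃ N : Finset V, (v ∈ S → N ⊆ B v ∧ N.card = D) := by
    intro v
    by_cases hv : v ∈ S
    · obtain ⟨N, h1, h2⟩ := Finset.exists_subset_card_eq (hS v hv).2
      exact ⟨N, fun _ => ⟨h1, h2⟩⟩
    · exact ⟨∅, fun h => absurd h hv⟩
  choose N hN using hN
  set P : Finset (V × Finset V) := S.image (fun v => (v, N v)) with hP
  have hPc : P.card = S.card :=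
    Finset.card_image_of_injective _ (fun a b h => (Prod.ext_iff.mp h).1)
  have hPD : ∀ p ∈ P, p.2.card = D := by
    intro p hp
    obtain ⟨v, hv, rfl⟩ := Finset.mem_image.mp hp
    exact (hN v hv).2
  have hle : starGraph P ≤ H := by
    intro a b hab
    rw [starGraph_adj] at hab
    obtain ⟨-, h | h⟩ := hab
    · obtain ⟨p, hp, rfl, hb⟩ := h
      obtain ⟨v, hv, rfl⟩ := Finset.mem_image.mp hp
      exact (hB v b ((hN v hv).1 hb)).1
    · obtain ⟨p, hp, rfl, hb⟩ := h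
      obtain ⟨v, hv, rfl⟩ := Finset.mem_image.mp hp
      exact (hB v a ((hN v hv).1 hb)).1.symm
  have hedges : S.card * D ≤ (starGraph P).edgeSet.ncard := by
    set T : Finset (Σ _ : V, V) := S.sigma N with hT
    have hTc : T.card = S.card * D := by
      rw [hT, Finset.card_sigma, Finset.sum_congr rfl (fun v hv => (hN v hv).2), Finset.sum_const,
        smul_eq_mul]
    let f : (Σ _ : V, V) → Sym2 V := fun x => s(x.1, x.2)
    have hinj : Set.InjOn f (T : Set (Σ _ : V, V)) := by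
      rintro ⟨x1, x2⟩ hx ⟨y1, y2⟩ hy hxy
      rw [Finset.mem_coe, hT, Finset.mem_sigma] at hx hy
      simp only [f, Sym2.eq_iff] at hxy
      rcases hxy with ⟨h1, h2⟩ | ⟨h1, h2⟩
      · subst h1 h2; rfl
      · exfalso
        have e1 := (hS x1 hx.1).1
        have e2 := (hB y1 y2 ((hN y1 hy.1).1 hy.2)).2
        rw [h1, e2] at e1
        exact Bool.false_ne_true e1
    have hsub : (↑(T.image f) : Set (Sym2 V)) ⊆ (starGraph P).edgeSet := by
      intro e he
      rw [Finset.mem_coe] at he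
      obtain ⟨⟨x1, x2⟩, hx, rfl⟩ := Finset.mem_image.mp he
      rw [hT, Finset.mem_sigma] at hx
      show s(x1, x2) ∈ (starGraph P).edgeSet
      rw [SimpleGraph.mem_edgeSet, starGraph_adj]
      refine ⟨?_, Or.inl ⟨(x1, N x1), Finset.mem_image.mpr ⟨x1, hx.1, rfl⟩, rfl, hx.2⟩⟩
      exact (hB x1 x2 ((hN x1 hx.1).1 hx.2)).1.ne
    calc S.card * D = (T.image f).card := by rw [Finset.card_image_of_injOn hinj, hTc]
      _ = Set.ncard (↑(T.image f) : Set (Sym2 V)) := (Set.ncard_coe_finset _).symm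
      _ ≤ (starGraph P).edgeSet.ncard := Set.ncard_le_ncard hsub (Set.toFinite _)
  set s := S.card with hs
  set Pn : ℕ := Fintype.card V * (Fintype.card V).choose D with hPn
  have h1 := hyp (starGraph P) hle
  have h2 : (Set.ncard {G : SimpleGraph V | Nonempty (G ≃g starGraph P)} : ℝ) ≤ (Pn.choose s : ℝ) := by
    exact_mod_cast copies_le P s D hPc hPD
  have h3 : q ^ (starGraph P).edgeSet.ncard ≤ q ^ (s * D) := pow_le_pow_of_le_one hq0 hq1 hedges
  have h4 : (Pn.choose s : ℝ) ≤ (Pn : ℝ) ^ s / (s.factorial : ℝ) := Nat.choose_le_pow_div s Pn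
  have hf : (0 : ℝ) < (s.factorial : ℝ) := by exact_mod_cast Nat.factorial_pos s
  have h5 : (1 / 2 : ℝ) ≤ (Pn : ℝ) ^ s / (s.factorial : ℝ) * q ^ (s * D) := by
    calc (1 / 2 : ℝ) ≤ _ := h1
      _ ≤ (Pn.choose s : ℝ) * q ^ (s * D) := by gcongr
      _ ≤ (Pn : ℝ) ^ s / (s.factorial : ℝ) * q ^ (s * D) := by gcongr
  rcases Nat.eq_zero_or_pos s with hs0 | hs0
  · rw [hs0]; simp only [Nat.cast_zero]; positivity
  have h6 : (s.factorial : ℝ) ≤ (2 * ((Pn : ℝ) * q ^ D)) ^ s := by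
    rw [div_mul_eq_mul_div, le_div_iff₀ hf] at h5
    have h2s : (2 : ℝ) ≤ 2 ^ s := by
      calc (2 : ℝ) = 2 ^ 1 := by norm_num
        _ ≤ 2 ^ s := pow_le_pow_right₀ (by norm_num) hs0
    have hnn : (0 : ℝ) ≤ (Pn : ℝ) ^ s * q ^ (s * D) := by positivity
    calc (s.factorial : ℝ) ≤ 2 * ((Pn : ℝ) ^ s * q ^ (s * D)) := by linarith
      _ ≤ 2 ^ s * ((Pn : ℝ) ^ s * q ^ (s * D)) := by gcongr
      _ = (2 * ((Pn : ℝ) * q ^ D)) ^ s := by rw [mul_pow, mul_pow, ← pow_mul, mul_comm D s]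
  have h7 := le_of_factorial_le s (2 * ((Pn : ℝ) * q ^ D)) (by positivity) h6
  rw [hPn] at h7
  push_cast at h7
  linarith

end Vale.Agent.P064
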