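import Mathlib
import Vale.Agent.P064.Arith

open Finset

namespace Vale.Agent.P064

theorem ratio_two (n : ℕ) (hn : 2 ≤ n) : (n : ℝ) / ((n - 1 : ℕ) : ℝ) ≤ 2 := by
  have h1 : ((n - 1 : ℕ) : ℝ) = (n : ℝ) - 1 := by
    rw [Nat.cast_sub (by omega)]; simp
  have h2 : (2 : ℝ) ≤ n := by exact_mod_cast hn
  rw [h1, div_le_iff₀ (by linarith)]
  linarith

theorem key (n D t : ℕ) (q : ℝ) (hn : 2 ≤ n) (ht : t ≤ D) (hD1 : 1 ≤ D) (hDn : D ≤ n - 1)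
    (hq0 : 0 ≤ q) (hbig : 2 * Real.exp 1 * ((n : ℝ) * q) ≤ D) (m : ℝ) (hm0 : 0 ≤ m)
    (hm : m ≤ 2 * (Real.exp 1 * ((n : ℝ) * (n.choose D : ℝ) * q ^ D))) :
    m * (D.choose t : ℝ) ≤
      2 * Real.exp 1 * n * ((n - 1).choose t : ℝ) * (2 * Real.exp 1 * q) ^ t * (1 / 2) ^ (D - t) := by
  set e := Real.exp 1 with he
  have he0 : 0 < e := Real.exp_pos 1
  set θ : ℝ := (n : ℝ) * q with hθ
  have hθ0 : 0 ≤ θ := by positivity
  have hDpos : (0 : ℝ) < D := by exact_mod_cast hD1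
  have hn1 : 0 < n - 1 := by omega
  have hn1' : (0 : ℝ) < ((n - 1 : ℕ) : ℝ) := by exact_mod_cast hn1
  -- bound on m
  have h1 : (n.choose D : ℝ) * q ^ D ≤ (e * θ / D) ^ D := by
    calc (n.choose D : ℝ) * q ^ D ≤ ((n : ℝ) ^ D / (D.factorial : ℝ)) * q ^ D := by
          gcongr
          exact Nat.choose_le_pow_div D n
      _ = θ ^ D / (D.factorial : ℝ) := by rw [hθ, mul_pow]; ring
      _ ≤ (e * θ / D) ^ D := pow_div_factorial_le D hD1 θ hθ0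
  have hx : e * θ / D ≤ 1 / 2 := by
    rw [div_le_iff₀ hDpos]
    nlinarith
  have hx0 : 0 ≤ e * θ / D := by positivity
  have h2 : (e * θ / D) ^ D = (e * θ / D) ^ (D - t) * (e * θ / D) ^ t := by
    rw [← pow_add]; congr 1; omega
  have h3 : (D.choose t : ℝ) ≤ ((n - 1).choose t : ℝ) * ((D : ℝ) / ((n - 1 : ℕ) : ℝ)) ^ t :=
    choose_ratio D (n - 1) hDn hn1 t
  have h4 : (e * θ / D) ^ t * ((D : ℝ) / ((n - 1 : ℕ) : ℝ)) ^ t ≤ (2 * e * q) ^ t := by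
    rw [← mul_pow]
    have : e * θ / D * ((D : ℝ) / ((n - 1 : ℕ) : ℝ)) = e * q * ((n : ℝ) / ((n - 1 : ℕ) : ℝ)) := by
      rw [hθ]; field_simp
    rw [this]
    have h5 := ratio_two n hn
    refine pow_le_pow_left₀ (by positivity) ?_ t
    calc e * q * ((n : ℝ) / ((n - 1 : ℕ) : ℝ)) ≤ e * q * 2 := by gcongr
      _ = 2 * e * q := by ring
  have hc0 : (0 : ℝ) ≤ ((n - 1).choose t : ℝ) := by positivity
  calc m * (D.choose t : ℝ)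
      ≤ (2 * (e * ((n : ℝ) * (n.choose D : ℝ) * q ^ D))) * (D.choose t : ℝ) := by gcongr
    _ = 2 * e * n * ((n.choose D : ℝ) * q ^ D) * (D.choose t : ℝ) := by ring
    _ ≤ 2 * e * n * ((e * θ / D) ^ D) * (((n - 1).choose t : ℝ) * ((D : ℝ) / ((n - 1 : ℕ) : ℝ)) ^ t) := by
        gcongr
    _ = 2 * e * n * ((n - 1).choose t : ℝ) * ((e * θ / D) ^ t * ((D : ℝ) / ((n - 1 : ℕ) : ℝ)) ^ t)
          * (e * θ / D) ^ (D - t) := by rw [h2]; ring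
    _ ≤ 2 * e * n * ((n - 1).choose t : ℝ) * (2 * e * q) ^ t * (1 / 2) ^ (D - t) := by
        gcongr

theorem low (n d t : ℕ) (q : ℝ) (hn : 2 ≤ n) (hdn : d ≤ n - 1) (hq0 : 0 ≤ q)
    (hsmall : (d : ℝ) ≤ 2 * Real.exp 1 * ((n : ℝ) * q)) :
    (d.choose t : ℝ) ≤ ((n - 1).choose t : ℝ) * (4 * Real.exp 1 * q) ^ t := by
  have hn1 : 0 < n - 1 := by omega
  have hn1' : (0 : ℝ) < ((n - 1 : ℕ) : ℝ) := by exact_mod_cast hn1
  have he0 : 0 < Real.exp 1 := Real.exp_pos 1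
  refine (choose_ratio d (n - 1) hdn hn1 t).trans ?_
  gcongr
  have h5 := ratio_two n hn
  calc (d : ℝ) / ((n - 1 : ℕ) : ℝ) ≤ (2 * Real.exp 1 * ((n : ℝ) * q)) / ((n - 1 : ℕ) : ℝ) := by gcongr
    _ = 2 * Real.exp 1 * q * ((n : ℝ) / ((n - 1 : ℕ) : ℝ)) := by ring
    _ ≤ 2 * Real.exp 1 * q * 2 := by gcongr
    _ = 4 * Real.exp 1 * q := by ring

theorem geom_Ico (t n : ℕ) : ∑ D ∈ Finset.Ico t n, ((1 : ℝ) / 2) ^ (D - t) ≤ 2 := by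
  rw [Finset.sum_Ico_eq_sum_range]
  simp only [add_tsub_cancel_left]
  exact sum_geometric_two_le _

end Vale.Agent.P064
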