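import Mathlib
import Vale.Agent.P064.Degree
import Vale.Agent.P064.Key

open Finset

namespace Vale.Agent.P064

variable {V : Type*} [Fintype V] [DecidableEq V]

/-- blue neighbours of `v` -/
def blueNbrs (H : SimpleGraph V) [DecidableRel H.Adj] (c : V → Bool) (v : V) : Finset V :=
  univ.filter (fun u => H.Adj v u ∧ c u = false)

/-- number of blue neighbours of a red vertex, `0` for a blue vertex -/
def rbDeg (H : SimpleGraph V) [DecidableRel H.Adj] (c : V → Bool) (v : V) : ℕ :=
  if c v = true then (blueNbrs H c v).card else 0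

theorem colour_bound (H : SimpleGraph V) [DecidableRel H.Adj] (q : ℝ) (hq0 : 0 ≤ q) (hq1 : q ≤ 1)
    (hyp : ∀ F : SimpleGraph V, F ≤ H →
      1 / 2 ≤ (Set.ncard {G : SimpleGraph V | Nonempty (G ≃g F)} : ℝ) * q ^ F.edgeSet.ncard)
    (hn : 2 ≤ Fintype.card V) (t : ℕ) (ht : 1 ≤ t) (c : V → Bool) :
    (∑ v, ((rbDeg H c v).choose t : ℝ)) ≤
      (Fintype.card V : ℝ) * ((Fintype.card V - 1).choose t : ℝ) *
        ((4 * Real.exp 1 * q) ^ t + 4 * Real.exp 1 * (2 * Real.exp 1 * q) ^ t) := by
  classical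
  set n := Fintype.card V with hnV
  set e := Real.exp 1 with he
  have he0 : 0 < e := Real.exp_pos 1
  set d := rbDeg H c with hd
  have hdn : ∀ v, d v ≤ n - 1 := by
    intro v
    rw [hd]; unfold rbDeg
    split_ifs
    · have : blueNbrs H c v ⊆ univ.erase v := by
        intro u hu
        unfold blueNbrs at hu
        rw [mem_filter] at hu
        exact mem_erase.mpr ⟨hu.2.1.ne', mem_univ _⟩
      calc (blueNbrs H c v).card ≤ (univ.erase v).card := card_le_card this
        _ = n - 1 := by rw [card_erase_of_mem (mem_univ v), card_univ]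
    · exact Nat.zero_le _
  have hc0 : (0 : ℝ) ≤ ((n - 1).choose t : ℝ) := by positivity
  -- split
  rw [← Finset.sum_filter_add_sum_filter_not univ (fun v => (d v : ℝ) ≤ 2 * e * ((n : ℝ) * q))]
  have hlow : ∑ v ∈ univ.filter (fun v => (d v : ℝ) ≤ 2 * e * ((n : ℝ) * q)), ((d v).choose t : ℝ)
      ≤ (n : ℝ) * (((n - 1).choose t : ℝ) * (4 * e * q) ^ t) := by
    calc _ ≤ ∑ v ∈ univ.filter (fun v => (d v : ℝ) ≤ 2 * e * ((n : ℝ) * q)),
          (((n - 1).choose t : ℝ) * (4 * e * q) ^ t) := by
          refine Finset.sum_le_sum fun v hv => ?_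
          exact low n (d v) t q hn (hdn v) hq0 (mem_filter.mp hv).2
      _ = ((univ.filter (fun v => (d v : ℝ) ≤ 2 * e * ((n : ℝ) * q))).card : ℝ)
          * (((n - 1).choose t : ℝ) * (4 * e * q) ^ t) := by rw [Finset.sum_const, nsmul_eq_mul]
      _ ≤ (n : ℝ) * (((n - 1).choose t : ℝ) * (4 * e * q) ^ t) := by
          gcongr
          rw [hnV, ← card_univ]
          exact card_le_card (filter_subset _ _)
  set Hi := univ.filter (fun v => ¬ (d v : ℝ) ≤ 2 * e * ((n : ℝ) * q)) with hHi
  have hhigh : ∑ v ∈ Hi, ((d v).choose t : ℝ)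
      ≤ 2 * e * n * ((n - 1).choose t : ℝ) * (2 * e * q) ^ t * 2 := by
    have h1 : ∑ v ∈ Hi, ((d v).choose t : ℝ) = ∑ v ∈ Hi.filter (fun v => t ≤ d v), ((d v).choose t : ℝ) := by
      refine (Finset.sum_filter_of_ne fun v _ h => ?_).symm
      by_contra hlt
      exact h (by rw [Nat.choose_eq_zero_of_lt (by omega)]; simp)
    rw [h1]
    have hmaps : ∀ v ∈ Hi.filter (fun v => t ≤ d v), d v ∈ Finset.Ico t n := by
      intro v hv
      rw [Finset.mem_Ico]
      have := hdn v
      exact ⟨(mem_filter.mp hv).2, by omega⟩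
    rw [← Finset.sum_fiberwise_of_maps_to hmaps]
    have hterm : ∀ D ∈ Finset.Ico t n,
        ∑ v ∈ (Hi.filter (fun v => t ≤ d v)).filter (fun v => d v = D), ((d v).choose t : ℝ)
          ≤ 2 * e * n * ((n - 1).choose t : ℝ) * (2 * e * q) ^ t * (1 / 2) ^ (D - t) := by
      intro D hD
      rw [Finset.mem_Ico] at hD
      set M := (Hi.filter (fun v => t ≤ d v)).filter (fun v => d v = D) with hM
      have e1 : ∑ v ∈ M, ((d v).choose t : ℝ) = (M.card : ℝ) * (D.choose t : ℝ) := by
        rw [Finset.sum_congr rfl (fun v hv => by rw [(mem_filter.mp hv).2]), Finset.sum_const,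
          nsmul_eq_mul]
      rw [e1]
      rcases M.eq_empty_or_nonempty with hemp | ⟨v0, hv0⟩
      · rw [hemp]; simp; positivity
      have hv0' := mem_filter.mp hv0
      have hv0'' := mem_filter.mp hv0'.1
      have hbig : 2 * e * ((n : ℝ) * q) ≤ D := by
        have := (mem_filter.mp hv0''.1).2
        rw [hv0'.2] at this
        exact (not_le.mp this).le
      have hMS : ∀ v ∈ M, c v = true ∧ D ≤ (blueNbrs H c v).card := by
        intro v hv
        have hvD : d v = D := (mem_filter.mp hv).2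
        rw [hd] at hvD
        unfold rbDeg at hvD
        split_ifs at hvD with hcv
        · exact ⟨hcv, hvD.ge⟩
        · omega
      have hb := high_degree_bound H q hq0 hq1 hyp c (blueNbrs H c)
        (fun v u hu => by
          unfold blueNbrs at hu
          exact (mem_filter.mp hu).2) M D hMS
      exact key n D t q hn hD.1 (by omega) (by omega) hq0 hbig (M.card : ℝ) (by positivity) hb
    calc _ ≤ ∑ D ∈ Finset.Ico t n, 2 * e * n * ((n - 1).choose t : ℝ) * (2 * e * q) ^ t * (1 / 2) ^ (D - t) :=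
          Finset.sum_le_sum hterm
      _ = 2 * e * n * ((n - 1).choose t : ℝ) * (2 * e * q) ^ t * ∑ D ∈ Finset.Ico t n, ((1 : ℝ) / 2) ^ (D - t) := by
          rw [Finset.mul_sum]
      _ ≤ 2 * e * n * ((n - 1).choose t : ℝ) * (2 * e * q) ^ t * 2 := by
          gcongr
          exact geom_Ico t n
  calc _ ≤ (n : ℝ) * (((n - 1).choose t : ℝ) * (4 * e * q) ^ t)
        + 2 * e * n * ((n - 1).choose t : ℝ) * (2 * e * q) ^ t * 2 := add_le_add hlow hhigh
    _ = _ := by ring

end Vale.Agent.P064
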