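import Mathlib
import Vale.Agent.P064.Colour

open Finset

namespace Vale.Agent.P064

variable {V : Type*} [Fintype V] [DecidableEq V]

theorem count_pattern (W : Finset V) (π : V → Bool) :
    (univ.filter (fun c : V → Bool => ∀ w ∈ W, c w = π w)).card * 2 ^ W.card
      = 2 ^ Fintype.card V := by
  have h1 : univ.filter (fun c : V → Bool => ∀ w ∈ W, c w = π w)
      = Fintype.piFinset (fun i => if i ∈ W then ({π i} : Finset Bool) else univ) := by
    ext c
    rw [mem_filter, Fintype.mem_piFinset]
    constructor
    · rintro ⟨-, h⟩ i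
      split_ifs with hi
      · rw [mem_singleton]; exact h i hi
      · exact mem_univ _
    · intro h
      refine ⟨mem_univ _, fun w hw => ?_⟩
      have := h w
      rw [if_pos hw, mem_singleton] at this
      exact this
  rw [h1, Fintype.card_piFinset]
  have h2 : ∀ i : V, (if i ∈ W then ({π i} : Finset Bool) else univ).card = if i ∈ W then 1 else 2 := by
    intro i
    split_ifs <;> simp
  rw [Finset.prod_congr rfl (fun i _ => h2 i), Finset.prod_ite, Finset.prod_const_one, one_mul,
    Finset.prod_const, ← pow_add]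
  congr 1
  have h3 := Finset.card_filter_add_card_filter_not (s := (univ : Finset V)) (fun i => i ∈ W)
  have h4 : (univ.filter (fun i => i ∈ W)) = W := by ext; simp
  rw [h4, card_univ] at h3
  omega

theorem count_col (v : V) (T : Finset V) (hv : v ∉ T) :
    (univ.filter (fun c : V → Bool => c v = true ∧ ∀ u ∈ T, c u = false)).card * 2 ^ (T.card + 1)
      = 2 ^ Fintype.card V := by
  have h := count_pattern (insert v T) (fun i => decide (i = v))
  rw [card_insert_of_notMem hv] at h
  rw [← h]
  congr 2
  ext c
  rw [mem_filter, mem_filter]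
  simp only [mem_univ, true_and, mem_insert, forall_eq_or_imp, decide_true]
  constructor
  · rintro ⟨h1, h2⟩
    refine ⟨h1, fun u hu => ?_⟩
    rw [h2 u hu]
    symm
    rw [decide_eq_false_iff_not]
    rintro rfl
    exact hv hu
  · rintro ⟨h1, h2⟩
    refine ⟨h1, fun u hu => ?_⟩
    rw [h2 u hu, decide_eq_false_iff_not]
    rintro rfl
    exact hv hu

theorem choose_rb (H : SimpleGraph V) [DecidableRel H.Adj] (c : V → Bool) (v : V) (t : ℕ)
    (ht : 1 ≤ t) :
    (rbDeg H c v).choose t = ((powersetCard t (univ.filter (fun u => H.Adj v u))).filter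
      (fun T => c v = true ∧ ∀ u ∈ T, c u = false)).card := by
  unfold rbDeg
  by_cases hc : c v = true
  · rw [if_pos hc, ← card_powersetCard]
    congr 1
    ext T
    rw [mem_powersetCard, mem_filter, mem_powersetCard]
    unfold blueNbrs
    constructor
    · rintro ⟨h1, h2⟩
      refine ⟨⟨fun u hu => ?_, h2⟩, hc, fun u hu => ?_⟩
      · exact mem_filter.mpr ⟨mem_univ _, (mem_filter.mp (h1 hu)).2.1⟩
      · exact (mem_filter.mp (h1 hu)).2.2
    · rintro ⟨⟨h1, h2⟩, -, h3⟩
      exact ⟨fun u hu => mem_filter.mpr ⟨mem_univ _, (mem_filter.mp (h1 hu)).2, h3 u hu⟩, h2⟩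
  · rw [if_neg hc, Nat.choose_eq_zero_of_lt (by omega)]
    symm
    rw [card_eq_zero, filter_eq_empty_iff]
    intro T _ h
    exact hc h.1

theorem exists_colouring (H : SimpleGraph V) [DecidableRel H.Adj] (t : ℕ) (ht : 1 ≤ t) :
    ∃ c : V → Bool, ∑ v, ((univ.filter (fun u => H.Adj v u)).card).choose t
      ≤ 2 ^ (t + 1) * ∑ v, (rbDeg H c v).choose t := by
  set M := ∑ v, ((univ.filter (fun u => H.Adj v u)).card).choose t with hM
  have key : ∑ c : V → Bool, 2 ^ (t + 1) * ∑ v, (rbDeg H c v).choose t = ∑ _c : V → Bool, M := by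
    rw [← Finset.mul_sum]
    have h1 : ∑ c : V → Bool, ∑ v, (rbDeg H c v).choose t
        = ∑ v, ∑ T ∈ powersetCard t (univ.filter (fun u => H.Adj v u)),
            (univ.filter (fun c : V → Bool => c v = true ∧ ∀ u ∈ T, c u = false)).card := by
      rw [Finset.sum_comm]
      refine Finset.sum_congr rfl fun v _ => ?_
      simp_rw [choose_rb H _ v t ht, Finset.card_filter]
      rw [Finset.sum_comm]
    rw [h1, Finset.mul_sum]
    have h2 : ∀ v : V, 2 ^ (t + 1) * ∑ T ∈ powersetCard t (univ.filter (fun u => H.Adj v u)),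
            (univ.filter (fun c : V → Bool => c v = true ∧ ∀ u ∈ T, c u = false)).card
        = 2 ^ Fintype.card V * ((univ.filter (fun u => H.Adj v u)).card).choose t := by
      intro v
      rw [Finset.mul_sum]
      have h3 : ∀ T ∈ powersetCard t (univ.filter (fun u => H.Adj v u)),
          2 ^ (t + 1) * (univ.filter (fun c : V → Bool => c v = true ∧ ∀ u ∈ T, c u = false)).card
            = 2 ^ Fintype.card V := by
        intro T hT
        rw [mem_powersetCard] at hT
        have hv : v ∉ T := fun h => (mem_filter.mp (hT.1 h)).2.ne rfl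
        have := count_col v T hv
        rw [hT.2] at this
        rw [mul_comm]; exact this
      rw [Finset.sum_congr rfl h3, Finset.sum_const, card_powersetCard, smul_eq_mul, mul_comm]
    rw [Finset.sum_congr rfl (fun v _ => h2 v), ← Finset.mul_sum, Finset.sum_const, card_univ,
      smul_eq_mul, Fintype.card_fun, Fintype.card_bool]
  obtain ⟨c, -, hc⟩ := Finset.exists_le_of_sum_le (s := (univ : Finset (V → Bool)))
    ⟨fun _ => true, mem_univ _⟩ key.ge
  exact ⟨c, hc⟩

end Vale.Agent.P064
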