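import Mathlib
import Vale.Agent.P064.Average

open Finset

namespace Vale.Agent.P064

theorem numeric (q : ℝ) (hq0 : 0 ≤ q) (t : ℕ) (ht : 1 ≤ t) :
    (2 : ℝ) ^ (t + 1) * ((4 * Real.exp 1 * q) ^ t + 4 * Real.exp 1 * (2 * Real.exp 1 * q) ^ t)
      ≤ (280 * q) ^ t := by
  set e := Real.exp 1 with he
  have he0 : 0 < e := Real.exp_pos 1
  have he1 : e < 2.7182818286 := Real.exp_one_lt_d9
  have h1 : (2 : ℝ) ^ (t + 1) * (4 * e * q) ^ t = 2 * (8 * e * q) ^ t := by
    rw [pow_succ, show (8 * e * q) = 2 * (4 * e * q) by ring, mul_pow 2 (4 * e * q)]; ring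
  have h2 : (2 : ℝ) ^ (t + 1) * (4 * e * (2 * e * q) ^ t) = 8 * e * (4 * e * q) ^ t := by
    rw [pow_succ, show (4 * e * q) = 2 * (2 * e * q) by ring, mul_pow 2 (2 * e * q)]; ring
  have h3 : 2 * (4 * e * q) ^ t ≤ (8 * e * q) ^ t := by
    rw [show (8 * e * q) = 2 * (4 * e * q) by ring, mul_pow 2 (4 * e * q)]
    have : (2 : ℝ) ≤ 2 ^ t := by
      calc (2 : ℝ) = 2 ^ 1 := by norm_num
        _ ≤ 2 ^ t := pow_le_pow_right₀ (by norm_num) ht
    have hp : (0 : ℝ) ≤ (4 * e * q) ^ t := by positivity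
    nlinarith
  have h4 : (2 + 4 * e) ≤ (2 + 4 * e) ^ t := by
    calc (2 + 4 * e) = (2 + 4 * e) ^ 1 := by ring
      _ ≤ (2 + 4 * e) ^ t := pow_le_pow_right₀ (by linarith) ht
  have hp8 : (0 : ℝ) ≤ (8 * e * q) ^ t := by positivity
  calc (2 : ℝ) ^ (t + 1) * ((4 * e * q) ^ t + 4 * e * (2 * e * q) ^ t)
      = 2 * (8 * e * q) ^ t + 8 * e * (4 * e * q) ^ t := by rw [mul_add, h1, h2]
    _ ≤ (2 + 4 * e) * (8 * e * q) ^ t := by nlinarith
    _ ≤ (2 + 4 * e) ^ t * (8 * e * q) ^ t := by gcongr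
    _ = ((2 + 4 * e) * (8 * e) * q) ^ t := by rw [← mul_pow]; ring_nf
    _ ≤ (280 * q) ^ t := by
        refine pow_le_pow_left₀ (by positivity) ?_ t
        have : (2 + 4 * e) * (8 * e) ≤ 280 := by nlinarith
        nlinarith

theorem star_case (n : ℕ) (H : SimpleGraph (Fin n)) (q : ℝ) (hq0 : 0 ≤ q) (hq1 : q ≤ 1)
    (hyp : ∀ F : SimpleGraph (Fin n), F ≤ H →
      1 / 2 ≤ (Set.ncard {G : SimpleGraph (Fin n) | Nonempty (G ≃g F)} : ℝ) * q ^ F.edgeSet.ncard)
    (t : ℕ) (ht : 1 ≤ t) :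
    ((∑ v, ((H.neighborSet v).ncard).choose t : ℕ) : ℝ)
      ≤ (n : ℝ) * ((n - 1).choose t : ℝ) * (min 1 (280 * q)) ^ t := by
  classical
  have hdeg : ∀ v, (H.neighborSet v).ncard = (univ.filter (fun u => H.Adj v u)).card := by
    intro v
    rw [← Set.ncard_coe_finset]
    congr 1
    ext u
    simp [SimpleGraph.mem_neighborSet]
  simp_rw [hdeg]
  have hdn : ∀ v, (univ.filter (fun u => H.Adj v u)).card ≤ n - 1 := by
    intro v
    have : univ.filter (fun u => H.Adj v u) ⊆ univ.erase v := by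
      intro u hu
      exact mem_erase.mpr ⟨(mem_filter.mp hu).2.ne', mem_univ _⟩
    calc _ ≤ (univ.erase v).card := card_le_card this
      _ = n - 1 := by rw [card_erase_of_mem (mem_univ v), card_univ, Fintype.card_fin]
  have htriv : ((∑ v, ((univ.filter (fun u => H.Adj v u)).card).choose t : ℕ) : ℝ)
      ≤ (n : ℝ) * ((n - 1).choose t : ℝ) := by
    have : ∑ v, ((univ.filter (fun u => H.Adj v u)).card).choose t ≤ n * (n - 1).choose t := by
      calc _ ≤ ∑ _v : Fin n, (n - 1).choose t :=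
            Finset.sum_le_sum fun v _ => Nat.choose_le_choose t (hdn v)
        _ = n * (n - 1).choose t := by rw [Finset.sum_const, card_univ, Fintype.card_fin, smul_eq_mul]
    exact_mod_cast this
  rcases le_or_gt 1 (280 * q) with hL | hL
  · rw [min_eq_left hL, one_pow, mul_one]; exact htriv
  rw [min_eq_right hL.le]
  rcases Nat.lt_or_ge n 2 with hn | hn
  · -- no edges
    have hz : (n - 1).choose t = 0 := by
      rw [show n - 1 = 0 by omega]; exact Nat.choose_eq_zero_of_lt (by omega)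
    rw [hz] at htriv
    refine htriv.trans ?_
    simp only [Nat.cast_zero, mul_zero]
    positivity
  obtain ⟨c, hc⟩ := exists_colouring H t ht
  have hcb := colour_bound H q hq0 hq1 hyp (by rw [Fintype.card_fin]; exact hn) t ht c
  rw [Fintype.card_fin] at hcb
  have hc' : ((∑ v, ((univ.filter (fun u => H.Adj v u)).card).choose t : ℕ) : ℝ)
      ≤ 2 ^ (t + 1) * ∑ v, ((rbDeg H c v).choose t : ℝ) := by exact_mod_cast hc
  have hnum := numeric q hq0 t ht
  have hpos : (0 : ℝ) ≤ (n : ℝ) * ((n - 1).choose t : ℝ) := by positivity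
  calc _ ≤ 2 ^ (t + 1) * ∑ v, ((rbDeg H c v).choose t : ℝ) := hc'
    _ ≤ 2 ^ (t + 1) * ((n : ℝ) * ((n - 1).choose t : ℝ) *
        ((4 * Real.exp 1 * q) ^ t + 4 * Real.exp 1 * (2 * Real.exp 1 * q) ^ t)) := by gcongr
    _ = (n : ℝ) * ((n - 1).choose t : ℝ) * (2 ^ (t + 1) *
        ((4 * Real.exp 1 * q) ^ t + 4 * Real.exp 1 * (2 * Real.exp 1 * q) ^ t)) := by ring
    _ ≤ (n : ℝ) * ((n - 1).choose t : ℝ) * (280 * q) ^ t := by gcongr

end Vale.Agent.P064
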