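import Mathlib
import Vale.Agent.P064.Main
import Vale.Agent.P064.Forest

open Finset

namespace Vale.Agent.P064

theorem pow_le_exp_mul_desc (n w : ℕ) (h : w ≤ n) :
    (n : ℝ) ^ w ≤ Real.exp 1 ^ w * (n.descFactorial w : ℝ) := by
  have h1 := desc_ratio w n h w
  rw [Nat.descFactorial_self] at h1
  have h1' : (w.factorial : ℝ) * (n : ℝ) ^ w ≤ (n.descFactorial w : ℝ) * (w : ℝ) ^ w := by
    exact_mod_cast h1
  have h2 := Real.pow_div_factorial_le_exp (x := (w : ℝ)) (by positivity) w
  have hf : (0 : ℝ) < (w.factorial : ℝ) := by exact_mod_cast Nat.factorial_pos w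
  rw [div_le_iff₀ hf] at h2
  have h3 : Real.exp (w : ℝ) = Real.exp 1 ^ w := by
    rw [← Real.exp_nat_mul]; simp
  rw [h3] at h2
  have hD : (0 : ℝ) ≤ (n.descFactorial w : ℝ) := by positivity
  have h4 : (w.factorial : ℝ) * (n : ℝ) ^ w
      ≤ (w.factorial : ℝ) * (Real.exp 1 ^ w * (n.descFactorial w : ℝ)) := by
    calc (w.factorial : ℝ) * (n : ℝ) ^ w ≤ (n.descFactorial w : ℝ) * (w : ℝ) ^ w := h1'
      _ ≤ (n.descFactorial w : ℝ) * (Real.exp 1 ^ w * (w.factorial : ℝ)) := by gcongr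
      _ = _ := by ring
  exact le_of_mul_le_mul_left h4 hf

theorem support_card_le {n : ℕ} (F : SimpleGraph (Fin n)) (W : Finset (Fin n))
    (hW : ∀ v ∈ W, ∃ u, F.Adj v u) : W.card ≤ 2 * F.edgeSet.ncard := by
  classical
  have h1 : F.edgeSet.ncard = F.edgeFinset.card := Set.ncard_eq_toFinset_card' _
  rw [h1, ← F.sum_degrees_eq_twice_card_edges]
  calc W.card = ∑ _v ∈ W, 1 := by simp
    _ ≤ ∑ v ∈ W, F.degree v := by
        refine Finset.sum_le_sum fun v hv => ?_
        obtain ⟨u, hu⟩ := hW v hv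
        exact (F.degree_pos_iff_exists_adj v).mpr ⟨u, hu⟩
    _ ≤ ∑ v, F.degree v := Finset.sum_le_sum_of_subset (subset_univ W)

theorem subCount_le_top {V : Type} [Finite V] (H F : SimpleGraph V) :
    subCount H F ≤ subCount ⊤ F := by
  rw [subCount, subCount]
  refine Set.ncard_le_ncard ?_ (Set.toFinite _)
  rintro G ⟨_, h⟩
  exact ⟨le_top, h⟩

theorem star_forest_case (n : ℕ) (H : SimpleGraph (Fin n)) (q : ℝ) (hq0 : 0 ≤ q) (hq1 : q ≤ 1)
    (hyp : ∀ F : SimpleGraph (Fin n), F ≤ H →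
      1 / 2 ≤ (subCount ⊤ F : ℝ) * q ^ F.edgeSet.ncard)
    (F : SimpleGraph (Fin n)) (hF : IsStarForest F) :
    (subCount H F : ℝ) ≤ (subCount ⊤ F : ℝ) * (min 1 (2070 * q)) ^ F.edgeSet.ncard := by
  classical
  have htriv : (subCount H F : ℝ) ≤ (subCount ⊤ F : ℝ) := by exact_mod_cast subCount_le_top H F
  rcases le_or_gt 1 (2070 * q) with hL | hL
  · rw [min_eq_left hL, one_pow, mul_one]; exact htriv
  rw [min_eq_right hL.le]
  set p : ℝ := min 1 (280 * q) with hp
  have hp0 : 0 ≤ p := le_min zero_le_one (by positivity)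
  have hp1 : p ≤ 280 * q := min_le_right _ _
  have hyp' : ∀ F : SimpleGraph (Fin n), F ≤ H →
      1 / 2 ≤ (Set.ncard {G : SimpleGraph (Fin n) | Nonempty (G ≃g F)} : ℝ)
        * q ^ F.edgeSet.ncard := by
    intro F' hF'
    have := hyp F' hF'
    simpa [subCount] using this
  have hstar : ∀ t, 1 ≤ t → ((∑ v, ((H.neighborSet v).ncard).choose t : ℕ) : ℝ)
      ≤ (n : ℝ) * ((n - 1).choose t : ℝ) * p ^ t :=
    fun t ht => star_case n H q hq0 hq1 hyp' t ht
  set W : Finset (Fin n) := univ.filter (fun v => ∃ u, F.Adj v u) with hWdef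
  set m := F.edgeSet.ncard with hm
  have hW : ∀ a b, F.Adj a b → a ∈ W := fun a b hab => by
    simp only [hWdef, mem_filter, mem_univ, true_and]; exact ⟨b, hab⟩
  have hC := emb_bound H p hp0 hstar m F W hF rfl hW
  have hA := subCount_mul F H
  have hB := permCount_mul F H W hW
  have hD : Nat.card ({v // v ∈ W} ↪ Fin n) = n.descFactorial W.card := by
    rw [Nat.card_eq_fintype_card, Fintype.card_embedding_eq, Fintype.card_coe, Fintype.card_fin]
  rw [hD] at hB
  have hN : 0 < Nat.card (Equiv.Perm (Fin n)) := Nat.card_pos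
  have hAB : subCount H F * n.descFactorial W.card = subCount ⊤ F * embCount F H W := by
    have : subCount H F * n.descFactorial W.card * Nat.card (Equiv.Perm (Fin n))
        = subCount ⊤ F * embCount F H W * Nat.card (Equiv.Perm (Fin n)) := by
      calc subCount H F * n.descFactorial W.card * Nat.card (Equiv.Perm (Fin n))
          = (subCount H F * Nat.card (Equiv.Perm (Fin n))) * n.descFactorial W.card := by ring
        _ = subCount ⊤ F * (permCount F H * n.descFactorial W.card) := by rw [hA]; ring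
        _ = _ := by rw [hB]; ring
    exact Nat.eq_of_mul_eq_mul_right hN this
  have hwn : W.card ≤ n := by
    calc W.card ≤ (univ : Finset (Fin n)).card := card_le_card (subset_univ W)
      _ = n := by simp
  have hDpos : (0 : ℝ) < (n.descFactorial W.card : ℝ) := by
    exact_mod_cast Nat.descFactorial_pos.mpr hwn
  have hE := pow_le_exp_mul_desc n W.card hwn
  have hw2 : W.card ≤ 2 * m := support_card_le F W (fun v hv => by
    simpa [hWdef] using hv)
  have hAB' : (subCount H F : ℝ) * (n.descFactorial W.card : ℝ)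
      = (subCount ⊤ F : ℝ) * (embCount F H W : ℝ) := by exact_mod_cast hAB
  have hpm : (0 : ℝ) ≤ p ^ m := by positivity
  have h1 : (subCount H F : ℝ) * (n.descFactorial W.card : ℝ)
      ≤ ((subCount ⊤ F : ℝ) * (Real.exp 1 ^ W.card * p ^ m)) * (n.descFactorial W.card : ℝ) := by
    calc (subCount H F : ℝ) * (n.descFactorial W.card : ℝ)
        = (subCount ⊤ F : ℝ) * (embCount F H W : ℝ) := hAB'
      _ ≤ (subCount ⊤ F : ℝ) * ((n : ℝ) ^ W.card * p ^ m) := by gcongr
      _ ≤ (subCount ⊤ F : ℝ) * ((Real.exp 1 ^ W.card * (n.descFactorial W.card : ℝ)) * p ^ m) := by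
          gcongr
      _ = _ := by ring
  have h2 := le_of_mul_le_mul_right h1 hDpos
  have he1 : (1 : ℝ) ≤ Real.exp 1 := by
    have := Real.add_one_le_exp (1 : ℝ); linarith
  have he2 : Real.exp 1 < 2.7182818286 := Real.exp_one_lt_d9
  have h3 : Real.exp 1 ^ W.card * p ^ m ≤ (2070 * q) ^ m := by
    calc Real.exp 1 ^ W.card * p ^ m ≤ Real.exp 1 ^ (2 * m) * p ^ m := by
          gcongr
      _ = (Real.exp 1 ^ 2 * p) ^ m := by rw [pow_mul, mul_pow]
      _ ≤ (2070 * q) ^ m := by
          refine pow_le_pow_left₀ (by positivity) ?_ m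
          have : Real.exp 1 ^ 2 ≤ 7.39 := by nlinarith [Real.exp_pos 1]
          calc Real.exp 1 ^ 2 * p ≤ 7.39 * (280 * q) := by gcongr
            _ ≤ 2070 * q := by nlinarith
  calc (subCount H F : ℝ) ≤ (subCount ⊤ F : ℝ) * (Real.exp 1 ^ W.card * p ^ m) := h2
    _ ≤ (subCount ⊤ F : ℝ) * (2070 * q) ^ m := by gcongr

end Vale.Agent.P064
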