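import Mathlib
import Vale.Agent.P064.ForestMain
import Vale.Agent.P064.Acyclic

open Finset

namespace Vale.Agent.P064

theorem max_degree (n : ℕ) (H : SimpleGraph (Fin n)) (q : ℝ) (hq0 : 0 ≤ q) (hq1 : q ≤ 1)
    (hyp : ∀ F : SimpleGraph (Fin n), F ≤ H →
      1 / 2 ≤ (Set.ncard {G : SimpleGraph (Fin n) | Nonempty (G ≃g F)} : ℝ) * q ^ F.edgeSet.ncard)
    (v : Fin n) :
    ((H.neighborSet v).ncard : ℝ) ≤ max (Real.exp 1 ^ 2 * ((n : ℝ) * q)) (1 + Real.log (2 * n)) := by
  classical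
  set D := (H.neighborSet v).ncard with hD
  have hn : 0 < n := Fin.pos v
  have hn' : (0 : ℝ) < n := by exact_mod_cast hn
  set e := Real.exp 1 with he
  have he0 : 0 < e := Real.exp_pos 1
  set θ : ℝ := (n : ℝ) * q with hθ
  have hθ0 : 0 ≤ θ := by positivity
  rcases le_or_gt (D : ℝ) (e ^ 2 * θ) with hsmall | hbig
  · exact le_max_of_le_left hsmall
  refine le_max_of_le_right ?_
  have hDpos : 0 < D := by
    rcases Nat.eq_zero_or_pos D with h0 | h0
    · rw [h0] at hbig
      have : (0 : ℝ) ≤ e ^ 2 * θ := by positivity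
      simp at hbig
      linarith
    · exact h0
  have hDpos' : (0 : ℝ) < D := by exact_mod_cast hDpos
  let c : Fin n → Bool := fun u => decide (u = v)
  let B : Fin n → Finset (Fin n) := fun w => univ.filter (fun u => H.Adj w u ∧ c u = false)
  have hB : ∀ w u, u ∈ B w → H.Adj w u ∧ c u = false := fun w u hu => (mem_filter.mp hu).2
  have hBv : D ≤ (B v).card := by
    rw [hD, ← Set.ncard_coe_finset]
    refine Set.ncard_le_ncard ?_ (Set.toFinite _)
    intro u hu
    have hu' : H.Adj v u := hu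
    simp only [B, c, coe_filter, mem_univ, true_and, Set.mem_ofPred_eq, decide_eq_false_iff_not]
    exact ⟨hu', hu'.ne'⟩
  have key := high_degree_bound H q hq0 hq1 hyp c B hB {v} D (by
    intro w hw
    rw [mem_singleton] at hw
    subst hw
    exact ⟨by simp [c], hBv⟩)
  rw [card_singleton, Fintype.card_fin] at key
  have h1 : (n.choose D : ℝ) * q ^ D ≤ Real.exp (-(D : ℝ)) := by
    calc (n.choose D : ℝ) * q ^ D ≤ ((n : ℝ) ^ D / (D.factorial : ℝ)) * q ^ D := by
          gcongr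
          exact Nat.choose_le_pow_div D n
      _ = θ ^ D / (D.factorial : ℝ) := by rw [hθ, mul_pow]; ring
      _ ≤ (e * θ / D) ^ D := pow_div_factorial_le D hDpos θ hθ0
      _ ≤ (Real.exp (-1)) ^ D := by
          refine pow_le_pow_left₀ (by positivity) ?_ D
          rw [div_le_iff₀ hDpos', Real.exp_neg]
          have : e⁻¹ * (e ^ 2 * θ) = e * θ := by field_simp
          calc e * θ = e⁻¹ * (e ^ 2 * θ) := this.symm
            _ ≤ e⁻¹ * D := by gcongr
      _ = Real.exp (-(D : ℝ)) := by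
          rw [← Real.exp_nat_mul]; congr 1; ring
  have h2 : (1 : ℝ) ≤ 2 * (e * (n * Real.exp (-(D : ℝ)))) := by
    calc (1 : ℝ) ≤ 2 * (e * ((n : ℝ) * (n.choose D : ℝ) * q ^ D)) := by exact_mod_cast key
      _ = 2 * (e * (n * ((n.choose D : ℝ) * q ^ D))) := by ring
      _ ≤ _ := by gcongr
  have h3 : Real.exp (D : ℝ) ≤ e * (2 * n) := by
    have hpos := Real.exp_pos (D : ℝ)
    have : Real.exp (D : ℝ) * Real.exp (-(D : ℝ)) = 1 := by rw [← Real.exp_add]; simp
    calc Real.exp (D : ℝ) = Real.exp (D : ℝ) * 1 := by ring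
      _ ≤ Real.exp (D : ℝ) * (2 * (e * (n * Real.exp (-(D : ℝ))))) := by gcongr
      _ = e * (2 * n) * (Real.exp (D : ℝ) * Real.exp (-(D : ℝ))) := by ring
      _ = e * (2 * n) := by rw [this, mul_one]
  have h4 : (D : ℝ) ≤ Real.log (e * (2 * n)) := by
    rw [Real.le_log_iff_exp_le (by positivity)]
    exact h3
  rw [Real.log_mul he0.ne' (by positivity), he, Real.log_exp] at h4
  exact h4

theorem count_of_emb (n : ℕ) (H F : SimpleGraph (Fin n)) (p : ℝ) (hp0 : 0 ≤ p)
    (hC : ∀ W : Finset (Fin n), (∀ a b, F.Adj a b → a ∈ W) →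
      (embCount F H W : ℝ) ≤ (n : ℝ) ^ W.card * p ^ F.edgeSet.ncard) :
    (subCount H F : ℝ) ≤ (subCount ⊤ F : ℝ) * (Real.exp 1 ^ 2 * p) ^ F.edgeSet.ncard := by
  classical
  set W : Finset (Fin n) := univ.filter (fun v => ∃ u, F.Adj v u) with hWdef
  set m := F.edgeSet.ncard with hm
  have hW : ∀ a b, F.Adj a b → a ∈ W := fun a b hab => by
    simp only [hWdef, mem_filter, mem_univ, true_and]; exact ⟨b, hab⟩
  have hC := hC W hW
  have hA := subCount_mul F H
  have hB := permCount_mul F H W hW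
  have hD : Nat.card ({v // v ∈ W} ↪ Fin n) = n.descFactorial W.card := by
    rw [Nat.card_eq_fintype_card, Fintype.card_embedding_eq, Fintype.card_coe, Fintype.card_fin]
  rw [hD] at hB
  have hN : 0 < Nat.card (Equiv.Perm (Fin n)) := Nat.card_pos
  have hAB : subCount H F * n.descFactorial W.card = subCount ⊤ F * embCount F H W := by
    have : subCount H F * n.descFactorial W.card * Nat.card (Equiv.Perm (Fin n))
        = subCount ⊤ F * embCount F H W * Nat.card (Equiv.Perm (Fin n)) := by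
      calc subCount H F * n.descFactorial W.card * Nat.card (Equiv.Perm (Fin n))
          = (subCount H F * Nat.card (Equiv.Perm (Fin n))) * n.descFactorial W.card := by ring
        _ = subCount ⊤ F * (permCount F H * n.descFactorial W.card) := by rw [hA]; ring
        _ = _ := by rw [hB]; ring
    exact Nat.eq_of_mul_eq_mul_right hN this
  have hwn : W.card ≤ n := by
    calc W.card ≤ (univ : Finset (Fin n)).card := card_le_card (subset_univ W)
      _ = n := by simp
  have hDpos : (0 : ℝ) < (n.descFactorial W.card : ℝ) := by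
    exact_mod_cast Nat.descFactorial_pos.mpr hwn
  have hE := pow_le_exp_mul_desc n W.card hwn
  have hw2 : W.card ≤ 2 * m := support_card_le F W (fun v hv => by
    simpa [hWdef] using hv)
  have hAB' : (subCount H F : ℝ) * (n.descFactorial W.card : ℝ)
      = (subCount ⊤ F : ℝ) * (embCount F H W : ℝ) := by exact_mod_cast hAB
  have hpm : (0 : ℝ) ≤ p ^ m := by positivity
  have h1 : (subCount H F : ℝ) * (n.descFactorial W.card : ℝ)
      ≤ ((subCount ⊤ F : ℝ) * (Real.exp 1 ^ W.card * p ^ m)) * (n.descFactorial W.card : ℝ) := by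
    calc (subCount H F : ℝ) * (n.descFactorial W.card : ℝ)
        = (subCount ⊤ F : ℝ) * (embCount F H W : ℝ) := hAB'
      _ ≤ (subCount ⊤ F : ℝ) * ((n : ℝ) ^ W.card * p ^ m) := by gcongr
      _ ≤ (subCount ⊤ F : ℝ) * ((Real.exp 1 ^ W.card * (n.descFactorial W.card : ℝ)) * p ^ m) := by
          gcongr
      _ = _ := by ring
  have h2 := le_of_mul_le_mul_right h1 hDpos
  have he1 : (1 : ℝ) ≤ Real.exp 1 := by
    have := Real.add_one_le_exp (1 : ℝ); linarith
  have h3 : Real.exp 1 ^ W.card * p ^ m ≤ (Real.exp 1 ^ 2 * p) ^ m := by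
    calc Real.exp 1 ^ W.card * p ^ m ≤ Real.exp 1 ^ (2 * m) * p ^ m := by
          gcongr
      _ = (Real.exp 1 ^ 2 * p) ^ m := by rw [pow_mul, mul_pow]
  calc (subCount H F : ℝ) ≤ (subCount ⊤ F : ℝ) * (Real.exp 1 ^ W.card * p ^ m) := h2
    _ ≤ (subCount ⊤ F : ℝ) * (Real.exp 1 ^ 2 * p) ^ m := by gcongr

theorem forest_case (n : ℕ) (H : SimpleGraph (Fin n)) (q : ℝ) (hq0 : 0 ≤ q) (hq1 : q ≤ 1)
    (hyp : ∀ F : SimpleGraph (Fin n), F ≤ H →
      1 / 2 ≤ (subCount ⊤ F : ℝ) * q ^ F.edgeSet.ncard)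
    (F : SimpleGraph (Fin n)) (hF : F.IsAcyclic) :
    (subCount H F : ℝ) ≤ (subCount ⊤ F : ℝ)
      * (min 1 (max (55 * q) (8 * (1 + Real.log (2 * n)) / n))) ^ F.edgeSet.ncard := by
  classical
  have htriv : (subCount H F : ℝ) ≤ (subCount ⊤ F : ℝ) := by exact_mod_cast subCount_le_top H F
  rcases le_or_gt 1 (max (55 * q) (8 * (1 + Real.log (2 * n)) / n)) with hL | hL
  · rw [min_eq_left hL, one_pow, mul_one]; exact htriv
  rw [min_eq_right hL.le]
  rcases Nat.eq_zero_or_pos n with hn0 | hn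
  · subst hn0
    have : F.edgeSet.ncard = 0 := by
      have : F.edgeSet = ∅ := by
        ext x
        induction x using Sym2.ind with
        | _ a b => exact a.elim0
      rw [this]; simp
    rw [this, pow_zero, mul_one]; exact htriv
  have hn' : (0 : ℝ) < n := by exact_mod_cast hn
  have hyp' : ∀ F : SimpleGraph (Fin n), F ≤ H →
      1 / 2 ≤ (Set.ncard {G : SimpleGraph (Fin n) | Nonempty (G ≃g F)} : ℝ)
        * q ^ F.edgeSet.ncard := by
    intro F' hF'
    have := hyp F' hF'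
    simpa [subCount] using this
  set e := Real.exp 1 with he
  have he0 : 0 < e := Real.exp_pos 1
  have hlog : 0 ≤ Real.log (2 * n) := by
    apply Real.log_nonneg
    have : (1 : ℝ) ≤ n := by exact_mod_cast hn
    linarith
  set R : ℝ := max (e ^ 2 * ((n : ℝ) * q)) (1 + Real.log (2 * n)) with hR
  have hR0 : 0 ≤ R := le_max_of_le_right (by linarith)
  set Δ : ℕ := ⌊R⌋₊ with hΔdef
  have hΔ : ∀ v, (H.neighborSet v).ncard ≤ Δ := fun v =>
    Nat.le_floor (max_degree n H q hq0 hq1 hyp' v)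
  have hΔR : (Δ : ℝ) ≤ R := Nat.floor_le hR0
  have hC : ∀ W : Finset (Fin n), (∀ a b, F.Adj a b → a ∈ W) →
      (embCount F H W : ℝ) ≤ (n : ℝ) ^ W.card * (R / n) ^ F.edgeSet.ncard := by
    intro W hW
    have h1 := emb_bound_forest H Δ hΔ _ F W hF rfl hW
    have h1' : (embCount F H W : ℝ) * (n : ℝ) ^ F.edgeSet.ncard
        ≤ (n : ℝ) ^ W.card * (Δ : ℝ) ^ F.edgeSet.ncard := by exact_mod_cast h1
    have hnm : (0 : ℝ) < (n : ℝ) ^ F.edgeSet.ncard := by positivity
    rw [div_pow, mul_div_assoc', le_div_iff₀ hnm]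
    calc (embCount F H W : ℝ) * (n : ℝ) ^ F.edgeSet.ncard
        ≤ (n : ℝ) ^ W.card * (Δ : ℝ) ^ F.edgeSet.ncard := h1'
      _ ≤ (n : ℝ) ^ W.card * R ^ F.edgeSet.ncard := by gcongr
  have hmain := count_of_emb n H F (R / n) (by positivity) hC
  refine hmain.trans ?_
  have he2 : e < 2.7182818286 := Real.exp_one_lt_d9
  have hsq : e ^ 2 ≤ 7.39 := by nlinarith
  have hq4 : e ^ 2 * e ^ 2 ≤ 55 := by nlinarith [sq_nonneg e]
  have hbase : e ^ 2 * (R / n) ≤ max (55 * q) (8 * (1 + Real.log (2 * n)) / n) := by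
    rw [hR]
    rcases le_total (e ^ 2 * ((n : ℝ) * q)) (1 + Real.log (2 * n)) with h | h
    · rw [max_eq_right h]
      refine le_max_of_le_right ?_
      rw [mul_div_assoc']
      gcongr
      linarith
    · rw [max_eq_left h]
      refine le_max_of_le_left ?_
      have : e ^ 2 * (e ^ 2 * ((n : ℝ) * q) / n) = (e ^ 2 * e ^ 2) * q := by field_simp
      rw [this]
      gcongr
  gcongr

end Vale.Agent.P064
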