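import Mathlib

open Finset

namespace Vale.Agent.P064

variable {V : Type*} [Fintype V] [DecidableEq V]

/-- neighbours of `v` -/
def nb (H : SimpleGraph V) [DecidableRel H.Adj] (v : V) : Finset V :=
  univ.filter (fun u => H.Adj v u)

/-- neighbours of `v` of colour `2` -/
def lv (H : SimpleGraph V) [DecidableRel H.Adj] (c : V → Fin 3) (v : V) : Finset V :=
  univ.filter (fun u => H.Adj v u ∧ c u = 2)

theorem count_pattern3 (W : Finset V) (π : V → Fin 3) :
    (univ.filter (fun c : V → Fin 3 => ∀ w ∈ W, c w = π w)).card * 3 ^ W.card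
      = 3 ^ Fintype.card V := by
  have h1 : univ.filter (fun c : V → Fin 3 => ∀ w ∈ W, c w = π w)
      = Fintype.piFinset (fun i => if i ∈ W then ({π i} : Finset (Fin 3)) else univ) := by
    ext c
    rw [mem_filter, Fintype.mem_piFinset]
    constructor
    · rintro ⟨-, h⟩ i
      split_ifs with hi
      · rw [mem_singleton]; exact h i hi
      · exact mem_univ _
    · intro h
      refine ⟨mem_univ _, fun w hw => ?_⟩
      have := h w
      rw [if_pos hw, mem_singleton] at this
      exact this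
  rw [h1, Fintype.card_piFinset]
  have h2 : ∀ i : V, (if i ∈ W then ({π i} : Finset (Fin 3)) else univ).card
      = if i ∈ W then 1 else 3 := by
    intro i
    split_ifs <;> simp
  rw [Finset.prod_congr rfl (fun i _ => h2 i), Finset.prod_ite, Finset.prod_const_one, one_mul,
    Finset.prod_const, ← pow_add]
  congr 1
  have h3 := Finset.card_filter_add_card_filter_not (s := (univ : Finset V)) (fun i => i ∈ W)
  have h4 : (univ.filter (fun i => i ∈ W)) = W := by ext; simp
  rw [h4, card_univ] at h3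
  omega

/-- the colour pattern of a double star -/
def Pat (c : V → Fin 3) (u v : V) (S T : Finset V) : Prop :=
  c u = 0 ∧ c v = 1 ∧ (∀ s ∈ S, c s = 2) ∧ (∀ t ∈ T, c t = 2)

instance (c : V → Fin 3) (u v : V) (S T : Finset V) : Decidable (Pat c u v S T) := by
  unfold Pat; infer_instance

theorem count_pat (u v : V) (S T : Finset V) (a b : ℕ) (huv : u ≠ v) (hS : S.card = a)
    (hT : T.card = b) (huS : u ∉ S) (hvS : v ∉ S) (huT : u ∉ T) (hvT : v ∉ T) :
    3 ^ Fintype.card V ≤ 3 ^ (a + b + 2) * (univ.filter (fun c : V → Fin 3 => Pat c u v S T)).card := by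
  set W := insert u (insert v (S ∪ T)) with hW
  set π : V → Fin 3 := fun i => if i = u then 0 else if i = v then 1 else 2 with hπ
  have h := count_pattern3 W π
  have hWc : W.card ≤ a + b + 2 := by
    calc W.card ≤ (insert v (S ∪ T)).card + 1 := card_insert_le _ _
      _ ≤ ((S ∪ T).card + 1) + 1 := by
          have := card_insert_le v (S ∪ T)
          omega
      _ ≤ a + b + 2 := by
          have := card_union_le S T
          omega
  have hsub : univ.filter (fun c : V → Fin 3 => ∀ w ∈ W, c w = π w)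
      ⊆ univ.filter (fun c : V → Fin 3 => Pat c u v S T) := by
    intro c hc
    rw [mem_filter] at hc ⊢
    refine ⟨mem_univ _, ?_, ?_, ?_, ?_⟩
    · rw [hc.2 u (by simp [hW])]; simp [hπ]
    · rw [hc.2 v (by simp [hW])]; simp [hπ, huv.symm]
    · intro s hs
      rw [hc.2 s (by simp [hW, hs])]
      have h1 : s ≠ u := fun h => huS (h ▸ hs)
      have h2 : s ≠ v := fun h => hvS (h ▸ hs)
      simp [hπ, h1, h2]
    · intro s hs
      rw [hc.2 s (by simp [hW, hs])]
      have h1 : s ≠ u := fun h => huT (h ▸ hs)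
      have h2 : s ≠ v := fun h => hvT (h ▸ hs)
      simp [hπ, h1, h2]
  calc 3 ^ Fintype.card V
      = (univ.filter (fun c : V → Fin 3 => ∀ w ∈ W, c w = π w)).card * 3 ^ W.card := h.symm
    _ ≤ (univ.filter (fun c : V → Fin 3 => Pat c u v S T)).card * 3 ^ (a + b + 2) :=
        Nat.mul_le_mul (card_le_card hsub) (Nat.pow_le_pow_right (by norm_num) hWc)
    _ = _ := Nat.mul_comm _ _

/-- the double-star configurations of `H` -/
def baseTerm (H : SimpleGraph V) [DecidableRel H.Adj] (a b : ℕ) (w : V × V) : ℕ :=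
  if H.Adj w.1 w.2 then ((nb H w.1).erase w.2).card.choose a * ((nb H w.2).erase w.1).card.choose b
  else 0

/-- the double-star configurations of `H` that respect the colouring `c` -/
def colTerm (H : SimpleGraph V) [DecidableRel H.Adj] (a b : ℕ) (c : V → Fin 3) (w : V × V) : ℕ :=
  if H.Adj w.1 w.2 ∧ c w.1 = 0 ∧ c w.2 = 1 then
    (lv H c w.1).card.choose a * (lv H c w.2).card.choose b
  else 0

theorem term_avg (H : SimpleGraph V) [DecidableRel H.Adj] (a b : ℕ) (w : V × V) :
    3 ^ Fintype.card V * baseTerm H a b w ≤ 3 ^ (a + b + 2) * ∑ c : V → Fin 3, colTerm H a b c w := by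
  obtain ⟨u, v⟩ := w
  unfold baseTerm
  by_cases hadj : H.Adj u v
  swap
  · simp [hadj]
  simp only [hadj, if_true]
  set R := powersetCard a ((nb H u).erase v) ×ˢ powersetCard b ((nb H v).erase u) with hR
  have hRc : R.card = ((nb H u).erase v).card.choose a * ((nb H v).erase u).card.choose b := by
    rw [hR, card_product, card_powersetCard, card_powersetCard]
  have hA : ∀ c : V → Fin 3, (R.filter (fun r => Pat c u v r.1 r.2)).card ≤ colTerm H a b c (u, v) := by
    intro c
    unfold colTerm
    by_cases hc : c u = 0 ∧ c v = 1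
    · simp only [hadj, hc.1, hc.2, and_self, if_true]
      rw [← card_powersetCard, ← card_powersetCard, ← card_product]
      refine card_le_card ?_
      intro r hr
      rw [mem_filter, hR, mem_product, mem_powersetCard, mem_powersetCard] at hr
      obtain ⟨⟨⟨h1, h2⟩, ⟨h3, h4⟩⟩, -, -, h5, h6⟩ := hr
      rw [mem_product, mem_powersetCard, mem_powersetCard]
      refine ⟨⟨fun s hs => ?_, h2⟩, ⟨fun s hs => ?_, h4⟩⟩
      · have := (mem_erase.mp (h1 hs)).2
        exact mem_filter.mpr ⟨mem_univ _, (mem_filter.mp this).2, h5 s hs⟩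
      · have := (mem_erase.mp (h3 hs)).2
        exact mem_filter.mpr ⟨mem_univ _, (mem_filter.mp this).2, h6 s hs⟩
    · have : R.filter (fun r => Pat c u v r.1 r.2) = ∅ := by
        rw [filter_eq_empty_iff]
        intro r _ hp
        exact hc ⟨hp.1, hp.2.1⟩
      rw [this]
      exact Nat.zero_le _
  have hB : ∀ r ∈ R, 3 ^ Fintype.card V
      ≤ 3 ^ (a + b + 2) * (univ.filter (fun c : V → Fin 3 => Pat c u v r.1 r.2)).card := by
    intro r hr
    rw [hR, mem_product, mem_powersetCard, mem_powersetCard] at hr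
    obtain ⟨⟨h1, h2⟩, ⟨h3, h4⟩⟩ := hr
    refine count_pat u v r.1 r.2 a b hadj.ne h2 h4 ?_ ?_ ?_ ?_
    · intro h
      exact (mem_filter.mp (mem_erase.mp (h1 h)).2).2.ne rfl
    · intro h
      exact (mem_erase.mp (h1 h)).1 rfl
    · intro h
      exact (mem_erase.mp (h3 h)).1 rfl
    · intro h
      exact (mem_filter.mp (mem_erase.mp (h3 h)).2).2.ne rfl
  calc 3 ^ Fintype.card V * (((nb H u).erase v).card.choose a * ((nb H v).erase u).card.choose b)
      = ∑ _r ∈ R, 3 ^ Fintype.card V := by rw [sum_const, smul_eq_mul, hRc, Nat.mul_comm]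
    _ ≤ ∑ r ∈ R, 3 ^ (a + b + 2) * (univ.filter (fun c : V → Fin 3 => Pat c u v r.1 r.2)).card :=
        sum_le_sum hB
    _ = 3 ^ (a + b + 2) * ∑ c : V → Fin 3, (R.filter (fun r => Pat c u v r.1 r.2)).card := by
        rw [← mul_sum]
        congr 1
        simp_rw [card_filter]
        rw [sum_comm]
    _ ≤ 3 ^ (a + b + 2) * ∑ c : V → Fin 3, colTerm H a b c (u, v) :=
        Nat.mul_le_mul_left _ (sum_le_sum fun c _ => hA c)

theorem exists_colouring3 (H : SimpleGraph V) [DecidableRel H.Adj] (a b : ℕ) :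
    ∃ c : V → Fin 3, ∑ w : V × V, baseTerm H a b w
      ≤ 3 ^ (a + b + 2) * ∑ w : V × V, colTerm H a b c w := by
  set M := ∑ w : V × V, baseTerm H a b w with hM
  have key : ∑ _c : V → Fin 3, M ≤ ∑ c : V → Fin 3, 3 ^ (a + b + 2) * ∑ w : V × V, colTerm H a b c w := by
    have e1 : ∑ _c : V → Fin 3, M = 3 ^ Fintype.card V * M := by
      rw [sum_const, card_univ, smul_eq_mul, Fintype.card_fun, Fintype.card_fin]
    have e2 : ∑ c : V → Fin 3, 3 ^ (a + b + 2) * ∑ w : V × V, colTerm H a b c w
        = ∑ w : V × V, 3 ^ (a + b + 2) * ∑ c : V → Fin 3, colTerm H a b c w := by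
      rw [← mul_sum, sum_comm, mul_sum]
    rw [e1, e2, hM, mul_sum]
    exact sum_le_sum fun w _ => term_avg H a b w
  obtain ⟨c, -, hc⟩ := Finset.exists_le_of_sum_le (s := (univ : Finset (V → Fin 3)))
    ⟨fun _ => 0, mem_univ _⟩ key
  exact ⟨c, hc⟩

end Vale.Agent.P064
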