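import Mathlib
import Vale.Agent.P064.Forest
import Vale.Agent.P064.Colour3

open Finset

namespace Vale.Agent.P064

theorem embCount_peel {V : Type} [Fintype V] [DecidableEq V] (F F' H : SimpleGraph V)
    (W X : Finset V) (hX : X ⊆ W) (hF' : F' ≤ F) :
    embCount F H W ≤ embCount F' H (W \ X) * embCount F H X := by
  rw [embCount, embCount, embCount, ← Set.ncard_prod]
  refine Set.ncard_le_ncard_of_injOn
    (fun φ => (restr (sdiff_subset : W \ X ⊆ W) φ, restr hX φ)) ?_ ?_ (Set.toFinite _)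
  · intro φ hφ
    refine ⟨?_, ?_⟩
    · intro a b hab
      exact hφ ⟨a.1, sdiff_subset a.2⟩ ⟨b.1, sdiff_subset b.2⟩ (hF' hab)
    · intro a b hab
      exact hφ ⟨a.1, hX a.2⟩ ⟨b.1, hX b.2⟩ hab
  · intro φ _ φ' _ h
    have h1 : restr (sdiff_subset : W \ X ⊆ W) φ = restr sdiff_subset φ' :=
      congrArg Prod.fst h
    have h2 : restr hX φ = restr hX φ' := congrArg Prod.snd h
    apply Function.Embedding.ext
    rintro ⟨v, hv⟩
    by_cases hvX : v ∈ X
    · exact DFunLike.congr_fun h2 ⟨v, hvX⟩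
    · exact DFunLike.congr_fun h1 ⟨v, mem_sdiff.mpr ⟨hv, hvX⟩⟩

theorem dsEmb_le {V : Type} [Fintype V] [DecidableEq V] (F H : SimpleGraph V)
    [DecidableRel H.Adj] (u v : V) (S T X : Finset V) (hu : u ∈ X) (hv : v ∈ X)
    (hSX : S ⊆ X) (hTX : T ⊆ X) (hcov : ∀ z ∈ X, z = u ∨ z = v ∨ z ∈ S ∨ z ∈ T)
    (huv : F.Adj u v) (hS : ∀ s ∈ S, F.Adj u s) (hT : ∀ t ∈ T, F.Adj v t)
    (hvS : v ∉ S) (huT : u ∉ T) :
    embCount F H X
      ≤ S.card.factorial * T.card.factorial * ∑ w : V × V, baseTerm H S.card T.card w := by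
  rw [embCount, ← Nat.card_coe_set_eq]
  let Idx := {w : V × V // H.Adj w.1 w.2}
  let Tt := Σ w : Idx, ({s // s ∈ S} ↪ {y // y ∈ (nb H w.1.1).erase w.1.2}) ×
    ({t // t ∈ T} ↪ {y // y ∈ (nb H w.1.2).erase w.1.1})
  let A := {φ : {z // z ∈ X} ↪ V | ∀ a b : {z // z ∈ X}, F.Adj a b → H.Adj (φ a) (φ b)}
  let g : A → Tt := fun φ => ⟨⟨(φ.1 ⟨u, hu⟩, φ.1 ⟨v, hv⟩), φ.2 ⟨u, hu⟩ ⟨v, hv⟩ huv⟩,
    (⟨fun s => ⟨φ.1 ⟨s.1, hSX s.2⟩, by
        refine mem_erase.mpr ⟨fun h => ?_, mem_filter.mpr ⟨mem_univ _,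
          φ.2 ⟨u, hu⟩ ⟨s.1, hSX s.2⟩ (hS s.1 s.2)⟩⟩
        have := φ.1.injective h
        exact hvS ((Subtype.mk.inj this) ▸ s.2)⟩, fun a b hab => by
      have h1 : φ.1 ⟨a.1, hSX a.2⟩ = φ.1 ⟨b.1, hSX b.2⟩ := congrArg Subtype.val hab
      have := φ.1.injective h1
      exact Subtype.ext (Subtype.mk.inj this)⟩,
     ⟨fun s => ⟨φ.1 ⟨s.1, hTX s.2⟩, by
        refine mem_erase.mpr ⟨fun h => ?_, mem_filter.mpr ⟨mem_univ _,
          φ.2 ⟨v, hv⟩ ⟨s.1, hTX s.2⟩ (hT s.1 s.2)⟩⟩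
        have := φ.1.injective h
        exact huT ((Subtype.mk.inj this) ▸ s.2)⟩, fun a b hab => by
      have h1 : φ.1 ⟨a.1, hTX a.2⟩ = φ.1 ⟨b.1, hTX b.2⟩ := congrArg Subtype.val hab
      have := φ.1.injective h1
      exact Subtype.ext (Subtype.mk.inj this)⟩)⟩
  let pr : Tt → (V × V) × ({s // s ∈ S} → V) × ({t // t ∈ T} → V) :=
    fun x => (x.1.1, fun s => (x.2.1 s).1, fun t => (x.2.2 t).1)
  have hg : Function.Injective g := by
    apply Function.Injective.of_comp (f := pr)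
    intro φ φ' h
    have h0 : (φ.1 ⟨u, hu⟩, φ.1 ⟨v, hv⟩) = (φ'.1 ⟨u, hu⟩, φ'.1 ⟨v, hv⟩) := congrArg Prod.fst h
    have h2 : (fun s : {s // s ∈ S} => φ.1 ⟨s.1, hSX s.2⟩)
        = (fun s : {s // s ∈ S} => φ'.1 ⟨s.1, hSX s.2⟩) := congrArg (fun z => z.2.1) h
    have h3 : (fun s : {s // s ∈ T} => φ.1 ⟨s.1, hTX s.2⟩)
        = (fun s : {s // s ∈ T} => φ'.1 ⟨s.1, hTX s.2⟩) := congrArg (fun z => z.2.2) h
    apply Subtype.ext
    apply Function.Embedding.ext
    rintro ⟨z, hz⟩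
    rcases hcov z hz with rfl | rfl | hzS | hzT
    · exact congrArg Prod.fst h0
    · exact congrArg Prod.snd h0
    · exact congrFun h2 ⟨z, hzS⟩
    · exact congrFun h3 ⟨z, hzT⟩
  calc Nat.card A ≤ Nat.card Tt := Nat.card_le_card_of_injective g hg
    _ = ∑ w : Idx, (((nb H w.1.1).erase w.1.2).card.descFactorial S.card
          * ((nb H w.1.2).erase w.1.1).card.descFactorial T.card) := by
        rw [Nat.card_eq_fintype_card, Fintype.card_sigma]
        refine Finset.sum_congr rfl fun x _ => ?_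
        rw [Fintype.card_prod, Fintype.card_embedding_eq, Fintype.card_embedding_eq,
          Fintype.card_coe, Fintype.card_coe, Fintype.card_coe, Fintype.card_coe]
    _ = ∑ w ∈ univ.filter (fun w : V × V => H.Adj w.1 w.2),
          (((nb H w.1).erase w.2).card.descFactorial S.card
          * ((nb H w.2).erase w.1).card.descFactorial T.card) := by
        symm
        exact Finset.sum_subtype (univ.filter (fun w : V × V => H.Adj w.1 w.2)) (by simp)
          (fun w => (((nb H w.1).erase w.2).card.descFactorial S.card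
          * ((nb H w.2).erase w.1).card.descFactorial T.card))
    _ = S.card.factorial * T.card.factorial * ∑ w : V × V, baseTerm H S.card T.card w := by
        rw [Finset.mul_sum, Finset.sum_filter]
        refine Finset.sum_congr rfl fun w _ => ?_
        unfold baseTerm
        split_ifs
        · rw [Nat.descFactorial_eq_factorial_mul_choose, Nat.descFactorial_eq_factorial_mul_choose]
          ring
        · simp

end Vale.Agent.P064
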