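import Mathlib
import Vale.Agent.P064.Degree

open Finset

namespace Vale.Agent.P064

variable {V : Type*} [Fintype V] [DecidableEq V]

/-- one-leaf stars coming from a set of ordered pairs -/
def pairFam (J : Finset (V × V)) : Finset (V × Finset V) := J.image (fun w => (w.1, {w.2}))

theorem move_pairFam (σ : V ≃ V) (J : Finset (V × V)) :
    moveFam σ (pairFam J) = pairFam (J.image (fun w => (σ w.1, σ w.2))) := by
  unfold moveFam pairFam
  rw [Finset.image_image, Finset.image_image]
  refine Finset.image_congr ?_
  intro w _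
  simp [Function.comp]

theorem moveFam_card (σ : V ≃ V) (P : Finset (V × Finset V)) : (moveFam σ P).card = P.card := by
  unfold moveFam
  rw [card_image_of_injective]
  intro p p' h
  simp only [Prod.mk.injEq] at h
  exact Prod.ext ((Equiv.injective _) h.1) (Finset.image_injective (Equiv.injective _) h.2)

theorem moveFam_subset (σ : V ≃ V) (P : Finset (V × Finset V)) (D : ℕ)
    (hD : ∀ p ∈ P, p.2.card = D) : moveFam σ P ⊆ univ ×ˢ powersetCard D univ := by
  intro p hp
  obtain ⟨p0, hp0, rfl⟩ := Finset.mem_image.mp hp
  rw [mem_product, mem_powersetCard]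
  refine ⟨mem_univ _, subset_univ _, ?_⟩
  rw [card_image_of_injective _ (Equiv.injective _)]
  exact hD p0 hp0

theorem copies_le3 (PA PB : Finset (V × Finset V)) (J : Finset (V × V)) (x y m a b : ℕ)
    (hx : PA.card = x) (hy : PB.card = y) (hm : J.card = m)
    (hA : ∀ p ∈ PA, p.2.card = a) (hB : ∀ p ∈ PB, p.2.card = b)
    (hJ : ∀ w ∈ J, w.1 ∈ PA.image Prod.fst ∧ w.2 ∈ PB.image Prod.fst) :
    Set.ncard {G : SimpleGraph V | Nonempty (G ≃g starGraph (PA ∪ PB ∪ pairFam J))}
      ≤ (Fintype.card V * (Fintype.card V).choose a).choose x *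
        (Fintype.card V * (Fintype.card V).choose b).choose y * (x * y).choose m := by
  set QA : Finset (V × Finset V) := univ ×ˢ powersetCard a univ with hQA
  set QB : Finset (V × Finset V) := univ ×ˢ powersetCard b univ with hQB
  have hQAc : QA.card = Fintype.card V * (Fintype.card V).choose a := by
    rw [hQA, card_product, card_powersetCard, card_univ]
  have hQBc : QB.card = Fintype.card V * (Fintype.card V).choose b := by
    rw [hQB, card_product, card_powersetCard, card_univ]
  set T : Finset (Σ _ : Finset (V × Finset V) × Finset (V × Finset V), Finset (V × V)) :=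
    (powersetCard x QA ×ˢ powersetCard y QB).sigma
      (fun R => powersetCard m ((R.1.image Prod.fst) ×ˢ (R.2.image Prod.fst))) with hT
  let Φ : (Σ _ : Finset (V × Finset V) × Finset (V × Finset V), Finset (V × V)) → SimpleGraph V :=
    fun z => starGraph (z.1.1 ∪ z.1.2 ∪ pairFam z.2)
  have hTc : T.card ≤ (Fintype.card V * (Fintype.card V).choose a).choose x *
        (Fintype.card V * (Fintype.card V).choose b).choose y * (x * y).choose m := by
    rw [hT, card_sigma]
    calc _ ≤ ∑ _R ∈ powersetCard x QA ×ˢ powersetCard y QB, (x * y).choose m := by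
          refine sum_le_sum fun R hR => ?_
          rw [card_powersetCard, card_product]
          rw [mem_product, mem_powersetCard, mem_powersetCard] at hR
          refine Nat.choose_le_choose m (Nat.mul_le_mul ?_ ?_)
          · exact card_image_le.trans hR.1.2.le
          · exact card_image_le.trans hR.2.2.le
      _ = _ := by
          rw [sum_const, card_product, card_powersetCard, card_powersetCard, hQAc, hQBc,
            smul_eq_mul]
  have hsub : {G : SimpleGraph V | Nonempty (G ≃g starGraph (PA ∪ PB ∪ pairFam J))}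
      ⊆ Φ '' (T : Set _) := by
    rintro G ⟨φ⟩
    set σ := φ.toEquiv.symm with hσ
    refine ⟨⟨(moveFam σ PA, moveFam σ PB), J.image (fun w => (σ w.1, σ w.2))⟩, ?_, ?_⟩
    · rw [mem_coe, hT, mem_sigma, mem_product, mem_powersetCard, mem_powersetCard,
        mem_powersetCard]
      refine ⟨⟨⟨moveFam_subset σ PA a hA, ?_⟩, ⟨moveFam_subset σ PB b hB, ?_⟩⟩, ?_, ?_⟩
      · rw [moveFam_card, hx]
      · rw [moveFam_card, hy]
      · intro w hw
        obtain ⟨w0, hw0, rfl⟩ := Finset.mem_image.mp hw
        obtain ⟨h1, h2⟩ := hJ w0 hw0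
        obtain ⟨p1, hp1, e1⟩ := Finset.mem_image.mp h1
        obtain ⟨p2, hp2, e2⟩ := Finset.mem_image.mp h2
        rw [mem_product]
        refine ⟨Finset.mem_image.mpr ⟨(σ p1.1, p1.2.image σ),
          Finset.mem_image.mpr ⟨p1, hp1, rfl⟩, by simp [e1]⟩,
          Finset.mem_image.mpr ⟨(σ p2.1, p2.2.image σ),
          Finset.mem_image.mpr ⟨p2, hp2, rfl⟩, by simp [e2]⟩⟩
      · rw [card_image_of_injective, hm]
        intro w w' h
        simp only [Prod.mk.injEq] at h
        exact Prod.ext (σ.injective h.1) (σ.injective h.2)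
    · show starGraph (moveFam σ PA ∪ moveFam σ PB ∪ pairFam _) = G
      rw [← move_pairFam, eq_of_iso _ G φ]
      unfold moveFam
      rw [image_union, image_union]
  calc Set.ncard {G : SimpleGraph V | Nonempty (G ≃g starGraph (PA ∪ PB ∪ pairFam J))}
      ≤ Set.ncard (Φ '' (↑T : Set (Σ _ : Finset (V × Finset V) × Finset (V × Finset V),
          Finset (V × V)))) := Set.ncard_le_ncard hsub (Set.toFinite _)
    _ ≤ Set.ncard (↑T : Set (Σ _ : Finset (V × Finset V) × Finset (V × Finset V),
          Finset (V × V))) := Set.ncard_image_le (Set.toFinite _)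
    _ = T.card := Set.ncard_coe_finset T
    _ ≤ _ := hTc

end Vale.Agent.P064
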