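import Mathlib
import Vale.Agent.P064.FatCopies

open Finset

namespace Vale.Agent.P064

theorem phi_bound (x m : ℕ) (ν : ℝ) (hν : 0 ≤ ν) (hxm : x ≤ m)
    (hx : (x : ℝ) ≤ 2 * (Real.exp 1 * ν)) :
    ν ^ x / (x.factorial : ℝ) * (x : ℝ) ^ m ≤ (2 * (Real.exp 1 * ν)) ^ m := by
  have h1 := Real.pow_div_factorial_le_exp (x := (x : ℝ)) (by positivity) x
  have h3 : Real.exp (x : ℝ) = Real.exp 1 ^ x := by rw [← Real.exp_nat_mul]; simp
  rw [h3] at h1
  have he0 : 0 < Real.exp 1 := Real.exp_pos 1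
  obtain ⟨k, rfl⟩ := Nat.exists_eq_add_of_le hxm
  calc ν ^ x / (x.factorial : ℝ) * (x : ℝ) ^ (x + k)
      = ν ^ x * ((x : ℝ) ^ x / (x.factorial : ℝ)) * (x : ℝ) ^ k := by rw [pow_add]; ring
    _ ≤ ν ^ x * (Real.exp 1 ^ x) * (2 * (Real.exp 1 * ν)) ^ k := by gcongr
    _ = (Real.exp 1 * ν) ^ x * (2 * (Real.exp 1 * ν)) ^ k := by rw [mul_pow]; ring
    _ ≤ (2 * (Real.exp 1 * ν)) ^ x * (2 * (Real.exp 1 * ν)) ^ k := by
        have h0 : 0 ≤ Real.exp 1 * ν := by positivity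
        have h5 : (Real.exp 1 * ν) ^ x ≤ (2 * (Real.exp 1 * ν)) ^ x :=
          pow_le_pow_left₀ h0 (by linarith) x
        exact mul_le_mul_of_nonneg_right h5 (by positivity)
    _ = _ := by rw [pow_add]

theorem fat_numeric (x y m : ℕ) (νa νb q : ℝ) (h0a : 0 ≤ νa) (h0b : 0 ≤ νb) (hq : 0 ≤ q)
    (hxm : x ≤ m) (hym : y ≤ m)
    (hx : (x : ℝ) ≤ 2 * (Real.exp 1 * νa)) (hy : (y : ℝ) ≤ 2 * (Real.exp 1 * νb))
    (h : 1 / 2 ≤ νa ^ x / (x.factorial : ℝ) * (νb ^ y / (y.factorial : ℝ)) *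
      (((x : ℝ) * y * q) ^ m / (m.factorial : ℝ))) :
    (m : ℝ) ≤ 8 * Real.exp 1 ^ 3 * (νa * νb * q) := by
  set e := Real.exp 1 with he
  have he0 : 0 < e := Real.exp_pos 1
  rcases Nat.eq_zero_or_pos m with hm0 | hm0
  · rw [hm0]; simp only [Nat.cast_zero]; positivity
  by_contra hlt
  rw [not_le] at hlt
  have hm' : (0 : ℝ) < m := by exact_mod_cast hm0
  have h1 := pow_div_factorial_le m hm0 ((x : ℝ) * y * q) (by positivity)
  have hA := phi_bound x m νa h0a hxm hx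
  have hB := phi_bound y m νb h0b hym hy
  set r : ℝ := 4 * e ^ 3 * (νa * νb * q) / m with hr
  have hr0 : 0 ≤ r := by positivity
  have hr1 : r < 1 / 2 := by
    rw [hr, div_lt_iff₀ hm']
    linarith
  have h2 : (1 : ℝ) / 2 ≤ r ^ m := by
    calc (1 : ℝ) / 2 ≤ _ := h
      _ ≤ νa ^ x / (x.factorial : ℝ) * (νb ^ y / (y.factorial : ℝ)) *
          (e * ((x : ℝ) * y * q) / m) ^ m := by gcongr
      _ = (νa ^ x / (x.factorial : ℝ) * (x : ℝ) ^ m) * (νb ^ y / (y.factorial : ℝ) * (y : ℝ) ^ m)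
          * (e * q / m) ^ m := by
          rw [show e * ((x : ℝ) * y * q) / m = (x : ℝ) * (y * (e * q / m)) by ring, mul_pow, mul_pow]
          ring
      _ ≤ (2 * (e * νa)) ^ m * (2 * (e * νb)) ^ m * (e * q / m) ^ m := by gcongr
      _ = r ^ m := by
          rw [← mul_pow, ← mul_pow, hr]
          congr 1
          ring
  have h3 : r ^ m ≤ r := pow_le_of_le_one hr0 (by linarith) (by omega)
  linarith

variable {V : Type*} [Fintype V] [DecidableEq V]

theorem fat_edge_bound (H : SimpleGraph V) (q : ℝ) (hq0 : 0 ≤ q) (hq1 : q ≤ 1)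
    (hyp : ∀ F : SimpleGraph V, F ≤ H →
      1 / 2 ≤ (Set.ncard {G : SimpleGraph V | Nonempty (G ≃g F)} : ℝ) * q ^ F.edgeSet.ncard)
    (c : V → Fin 3) (B : V → Finset V) (hB : ∀ v u, u ∈ B v → H.Adj v u ∧ c u = 2)
    (J : Finset (V × V)) (a b : ℕ)
    (hJ : ∀ w ∈ J, H.Adj w.1 w.2 ∧ c w.1 = 0 ∧ c w.2 = 1 ∧
      a ≤ (B w.1).card ∧ b ≤ (B w.2).card) :
    (J.card : ℝ) ≤ 8 * Real.exp 1 ^ 3 *
      (((Fintype.card V : ℝ) * ((Fintype.card V).choose a : ℝ) * q ^ a) *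
       ((Fintype.card V : ℝ) * ((Fintype.card V).choose b : ℝ) * q ^ b) * q) := by
  set X := J.image Prod.fst with hXdef
  set Y := J.image Prod.snd with hYdef
  have hX : ∀ u ∈ X, c u = 0 ∧ a ≤ (B u).card := by
    intro u hu
    obtain ⟨w, hw, rfl⟩ := Finset.mem_image.mp hu
    exact ⟨(hJ w hw).2.1, (hJ w hw).2.2.2.1⟩
  have hY : ∀ v ∈ Y, c v = 1 ∧ b ≤ (B v).card := by
    intro v hv
    obtain ⟨w, hw, rfl⟩ := Finset.mem_image.mp hv
    exact ⟨(hJ w hw).2.2.1, (hJ w hw).2.2.2.2⟩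
  have hNA : ∀ u, ∃ N : Finset V, (u ∈ X → N ⊆ B u ∧ N.card = a) := by
    intro u
    by_cases hu : u ∈ X
    · obtain ⟨N, h1, h2⟩ := Finset.exists_subset_card_eq (hX u hu).2
      exact ⟨N, fun _ => ⟨h1, h2⟩⟩
    · exact ⟨∅, fun h => absurd h hu⟩
  choose NA hNA using hNA
  have hNB : ∀ v, ∃ N : Finset V, (v ∈ Y → N ⊆ B v ∧ N.card = b) := by
    intro v
    by_cases hv : v ∈ Y
    · obtain ⟨N, h1, h2⟩ := Finset.exists_subset_card_eq (hY v hv).2
      exact ⟨N, fun _ => ⟨h1, h2⟩⟩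
    · exact ⟨∅, fun h => absurd h hv⟩
  choose NB hNB using hNB
  set PA : Finset (V × Finset V) := X.image (fun u => (u, NA u)) with hPA
  set PB : Finset (V × Finset V) := Y.image (fun v => (v, NB v)) with hPB
  have hPAc : PA.card = X.card :=
    Finset.card_image_of_injective _ (fun a b h => (Prod.ext_iff.mp h).1)
  have hPBc : PB.card = Y.card :=
    Finset.card_image_of_injective _ (fun a b h => (Prod.ext_iff.mp h).1)
  have hPAa : ∀ p ∈ PA, p.2.card = a := by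
    intro p hp
    obtain ⟨v, hv, rfl⟩ := Finset.mem_image.mp hp
    exact (hNA v hv).2
  have hPBb : ∀ p ∈ PB, p.2.card = b := by
    intro p hp
    obtain ⟨v, hv, rfl⟩ := Finset.mem_image.mp hp
    exact (hNB v hv).2
  have hJmem : ∀ w ∈ J, w.1 ∈ PA.image Prod.fst ∧ w.2 ∈ PB.image Prod.fst := by
    intro w hw
    refine ⟨Finset.mem_image.mpr ⟨(w.1, NA w.1), Finset.mem_image.mpr
      ⟨w.1, Finset.mem_image.mpr ⟨w, hw, rfl⟩, rfl⟩, rfl⟩,
      Finset.mem_image.mpr ⟨(w.2, NB w.2), Finset.mem_image.mpr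
      ⟨w.2, Finset.mem_image.mpr ⟨w, hw, rfl⟩, rfl⟩, rfl⟩⟩
  set P := PA ∪ PB ∪ pairFam J with hP
  have hPadj : ∀ p ∈ P, ∀ z ∈ p.2, H.Adj p.1 z := by
    intro p hp z hz
    rw [hP, mem_union, mem_union] at hp
    rcases hp with (hp | hp) | hp
    · obtain ⟨v, hv, rfl⟩ := Finset.mem_image.mp hp
      exact (hB v z ((hNA v hv).1 hz)).1
    · obtain ⟨v, hv, rfl⟩ := Finset.mem_image.mp hp
      exact (hB v z ((hNB v hv).1 hz)).1
    · obtain ⟨w, hw, rfl⟩ := Finset.mem_image.mp hp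
      rw [mem_singleton] at hz
      subst hz
      exact (hJ w hw).1
  have hle : starGraph P ≤ H := by
    intro s t hst
    rw [starGraph_adj] at hst
    obtain ⟨-, h | h⟩ := hst
    · obtain ⟨p, hp, rfl, hb⟩ := h
      exact hPadj p hp t hb
    · obtain ⟨p, hp, rfl, hb⟩ := h
      exact (hPadj p hp s hb).symm
  -- the edges
  have hinjσ : Function.Injective (fun z : (Σ _ : V, V) => ((z.1, z.2) : V × V)) := by
    rintro ⟨z1, z2⟩ ⟨z3, z4⟩ h
    simp only [Prod.mk.injEq] at h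
    obtain ⟨rfl, rfl⟩ := h
    rfl
  set Z1 : Finset (V × V) := (X.sigma NA).image (fun z => (z.1, z.2)) with hZ1
  set Z2 : Finset (V × V) := (Y.sigma NB).image (fun z => (z.1, z.2)) with hZ2
  have hZ1c : Z1.card = X.card * a := by
    rw [hZ1, card_image_of_injective _ hinjσ, card_sigma,
      Finset.sum_congr rfl (fun v hv => (hNA v hv).2), Finset.sum_const, smul_eq_mul]
  have hZ2c : Z2.card = Y.card * b := by
    rw [hZ2, card_image_of_injective _ hinjσ, card_sigma,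
      Finset.sum_congr rfl (fun v hv => (hNB v hv).2), Finset.sum_const, smul_eq_mul]
  have hZ1p : ∀ p ∈ Z1, c p.1 = 0 ∧ c p.2 = 2 ∧ (starGraph P).Adj p.1 p.2 := by
    intro p hp
    obtain ⟨⟨u, z⟩, hz, rfl⟩ := Finset.mem_image.mp hp
    rw [mem_sigma] at hz
    have h1 := hB u z ((hNA u hz.1).1 hz.2)
    refine ⟨(hX u hz.1).1, h1.2, ?_⟩
    rw [starGraph_adj]
    refine ⟨h1.1.ne, Or.inl ⟨(u, NA u), ?_, rfl, hz.2⟩⟩
    rw [hP, mem_union, mem_union]
    exact Or.inl (Or.inl (Finset.mem_image.mpr ⟨u, hz.1, rfl⟩))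
  have hZ2p : ∀ p ∈ Z2, c p.1 = 1 ∧ c p.2 = 2 ∧ (starGraph P).Adj p.1 p.2 := by
    intro p hp
    obtain ⟨⟨u, z⟩, hz, rfl⟩ := Finset.mem_image.mp hp
    rw [mem_sigma] at hz
    have h1 := hB u z ((hNB u hz.1).1 hz.2)
    refine ⟨(hY u hz.1).1, h1.2, ?_⟩
    rw [starGraph_adj]
    refine ⟨h1.1.ne, Or.inl ⟨(u, NB u), ?_, rfl, hz.2⟩⟩
    rw [hP, mem_union, mem_union]
    exact Or.inl (Or.inr (Finset.mem_image.mpr ⟨u, hz.1, rfl⟩))
  have hJp : ∀ p ∈ J, c p.1 = 0 ∧ c p.2 = 1 ∧ (starGraph P).Adj p.1 p.2 := by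
    intro p hp
    refine ⟨(hJ p hp).2.1, (hJ p hp).2.2.1, ?_⟩
    rw [starGraph_adj]
    refine ⟨(hJ p hp).1.ne, Or.inl ⟨(p.1, {p.2}), ?_, rfl, mem_singleton_self _⟩⟩
    rw [hP, mem_union]
    exact Or.inr (Finset.mem_image.mpr ⟨p, hp, rfl⟩)
  have hd12 : Disjoint Z1 Z2 := by
    rw [Finset.disjoint_left]
    intro p h1 h2
    have e1 := (hZ1p p h1).1
    have e2 := (hZ2p p h2).1
    rw [e1] at e2
    exact absurd e2 (by decide)
  have hd3 : Disjoint (Z1 ∪ Z2) J := by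
    rw [Finset.disjoint_left]
    intro p h1 h2
    have e2 := (hJp p h2).2.1
    rw [mem_union] at h1
    rcases h1 with h1 | h1
    · have e1 := (hZ1p p h1).2.1
      rw [e1] at e2
      exact absurd e2 (by decide)
    · have e1 := (hZ2p p h1).2.1
      rw [e1] at e2
      exact absurd e2 (by decide)
  set Z := Z1 ∪ Z2 ∪ J with hZ
  have hZc : Z.card = X.card * a + Y.card * b + J.card := by
    rw [hZ, card_union_of_disjoint hd3, card_union_of_disjoint hd12, hZ1c, hZ2c]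
  have hZp : ∀ p ∈ Z, c p.1 < c p.2 ∧ (starGraph P).Adj p.1 p.2 := by
    intro p hp
    rw [hZ, mem_union, mem_union] at hp
    rcases hp with (hp | hp) | hp
    · obtain ⟨e1, e2, e3⟩ := hZ1p p hp
      exact ⟨by rw [e1, e2]; decide, e3⟩
    · obtain ⟨e1, e2, e3⟩ := hZ2p p hp
      exact ⟨by rw [e1, e2]; decide, e3⟩
    · obtain ⟨e1, e2, e3⟩ := hJp p hp
      exact ⟨by rw [e1, e2]; decide, e3⟩
  have hedges : X.card * a + Y.card * b + J.card ≤ (starGraph P).edgeSet.ncard := by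
    let f : V × V → Sym2 V := fun p => s(p.1, p.2)
    have hinj : Set.InjOn f (Z : Set (V × V)) := by
      rintro ⟨x1, x2⟩ hx ⟨y1, y2⟩ hy hxy
      rw [Finset.mem_coe] at hx hy
      simp only [f, Sym2.eq_iff] at hxy
      rcases hxy with ⟨h1, h2⟩ | ⟨h1, h2⟩
      · subst h1 h2; rfl
      · exfalso
        have e1 := (hZp _ hx).1
        have e2 := (hZp _ hy).1
        simp only at e1 e2
        rw [h1, h2] at e1
        exact lt_asymm e1 e2
    have hsub : (↑(Z.image f) : Set (Sym2 V)) ⊆ (starGraph P).edgeSet := by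
      intro e he
      rw [Finset.mem_coe] at he
      obtain ⟨p, hp, rfl⟩ := Finset.mem_image.mp he
      exact (hZp p hp).2
    calc X.card * a + Y.card * b + J.card = (Z.image f).card := by
          rw [Finset.card_image_of_injOn hinj, hZc]
      _ = Set.ncard (↑(Z.image f) : Set (Sym2 V)) := (Set.ncard_coe_finset _).symm
      _ ≤ (starGraph P).edgeSet.ncard := Set.ncard_le_ncard hsub (Set.toFinite _)
  -- sizes
  set x := X.card with hx
  set y := Y.card with hy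
  set m := J.card with hm
  have hxm : x ≤ m := card_image_le
  have hym : y ≤ m := card_image_le
  set n := Fintype.card V with hn
  set MA : ℕ := n * n.choose a with hMA
  set MB : ℕ := n * n.choose b with hMB
  have hcop := copies_le3 PA PB J x y m a b hPAc hPBc rfl hPAa hPBb hJmem
  have hB' : ∀ v u, u ∈ B v → H.Adj v u ∧ (fun v => decide (c v ≠ 2)) u = false := by
    intro v u hu
    refine ⟨(hB v u hu).1, ?_⟩
    simp [(hB v u hu).2]
  have hxb := high_degree_bound H q hq0 hq1 hyp (fun v => decide (c v ≠ 2)) B hB' X a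
    (fun v hv => ⟨by simp [(hX v hv).1], (hX v hv).2⟩)
  have hyb := high_degree_bound H q hq0 hq1 hyp (fun v => decide (c v ≠ 2)) B hB' Y b
    (fun v hv => ⟨by simp [(hY v hv).1], (hY v hv).2⟩)
  have h1 := hyp (starGraph P) hle
  have h2 : (Set.ncard {G : SimpleGraph V | Nonempty (G ≃g starGraph P)} : ℝ)
      ≤ (MA.choose x : ℝ) * (MB.choose y : ℝ) * ((x * y).choose m : ℝ) := by
    exact_mod_cast hcop
  have h3 : q ^ (starGraph P).edgeSet.ncard ≤ q ^ (x * a + y * b + m) :=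
    pow_le_pow_of_le_one hq0 hq1 hedges
  have h4 : (MA.choose x : ℝ) ≤ (MA : ℝ) ^ x / (x.factorial : ℝ) := Nat.choose_le_pow_div x MA
  have h5 : (MB.choose y : ℝ) ≤ (MB : ℝ) ^ y / (y.factorial : ℝ) := Nat.choose_le_pow_div y MB
  have h6 : ((x * y).choose m : ℝ) ≤ ((x * y : ℕ) : ℝ) ^ m / (m.factorial : ℝ) :=
    Nat.choose_le_pow_div m (x * y)
  have h7 : (1 : ℝ) / 2 ≤ ((MA : ℝ) * q ^ a) ^ x / (x.factorial : ℝ) *
      (((MB : ℝ) * q ^ b) ^ y / (y.factorial : ℝ)) *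
      (((x : ℝ) * y * q) ^ m / (m.factorial : ℝ)) := by
    calc (1 : ℝ) / 2 ≤ _ := h1
      _ ≤ ((MA : ℝ) ^ x / (x.factorial : ℝ) * ((MB : ℝ) ^ y / (y.factorial : ℝ)) *
          (((x * y : ℕ) : ℝ) ^ m / (m.factorial : ℝ))) * q ^ (x * a + y * b + m) := by
          refine mul_le_mul (h2.trans ?_) h3 (by positivity) (by positivity)
          gcongr
      _ = _ := by
          rw [pow_add, pow_add, mul_pow, mul_pow, mul_pow, ← pow_mul, ← pow_mul, mul_comm a x,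
            mul_comm b y]
          push_cast
          ring
  have h8 := fat_numeric x y m ((MA : ℝ) * q ^ a) ((MB : ℝ) * q ^ b) q (by positivity)
    (by positivity) hq0 hxm hym (by rw [hMA]; push_cast; exact hxb)
    (by rw [hMB]; push_cast; exact hyb) h7
  rw [hMA, hMB] at h8
  push_cast at h8
  exact h8

end Vale.Agent.P064
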