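import Mathlib
import Vale.Agent.P064.FatJ
import Vale.Agent.P064.Colour3
import Vale.Agent.P064.Key

open Finset

namespace Vale.Agent.P064

/-- bound for `C(d, a)` in terms of the degree class `A` -/
noncomputable def Fw (n : ℕ) (q : ℝ) (a A : ℕ) : ℝ :=
  if A = 0 then ((n - 1).choose a : ℝ) * (4 * Real.exp 1 * q) ^ a
  else if 2 * Real.exp 1 * ((n : ℝ) * q) < A then (A.choose a : ℝ) else 0

theorem Fw_nonneg (n : ℕ) (q : ℝ) (hq0 : 0 ≤ q) (a A : ℕ) : 0 ≤ Fw n q a A := by
  unfold Fw
  have := Real.exp_pos 1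
  split_ifs <;> positivity

theorem class_sum (n : ℕ) (q : ℝ) (hn : 2 ≤ n) (hq0 : 0 ≤ q) (a : ℕ) :
    ∑ A ∈ range n, ((n : ℝ) * (n.choose A : ℝ) * q ^ A) * Fw n q a A
      ≤ 3 * ((n : ℝ) * ((n - 1).choose a : ℝ) * (4 * Real.exp 1 * q) ^ a) := by
  set e := Real.exp 1 with he
  have he0 : 0 < e := Real.exp_pos 1
  set K : ℝ := (n : ℝ) * ((n - 1).choose a : ℝ) * (2 * e * q) ^ a with hK
  have hK0 : 0 ≤ K := by positivity
  have hK4 : K ≤ (n : ℝ) * ((n - 1).choose a : ℝ) * (4 * e * q) ^ a := by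
    rw [hK]
    gcongr
    linarith
  rw [range_eq_Ico, sum_eq_sum_Ico_succ_bot (by omega : 0 < n)]
  have h0 : ((n : ℝ) * (n.choose 0 : ℝ) * q ^ 0) * Fw n q a 0
      = (n : ℝ) * ((n - 1).choose a : ℝ) * (4 * e * q) ^ a := by
    unfold Fw
    simp
    ring
  have hterm : ∀ A ∈ Ico (0 + 1) n, ((n : ℝ) * (n.choose A : ℝ) * q ^ A) * Fw n q a A
      ≤ if a ≤ A then K * (1 / 2) ^ (A - a) else 0 := by
    intro A hA
    rw [mem_Ico] at hA
    have hA0 : A ≠ 0 := by omega
    unfold Fw
    rw [if_neg hA0]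
    by_cases hbig : 2 * e * ((n : ℝ) * q) < A
    · rw [if_pos hbig]
      by_cases haA : a ≤ A
      · rw [if_pos haA]
        have := key n A a q hn haA (by omega) (by omega) hq0 hbig.le
          (2 * (e * ((n : ℝ) * (n.choose A : ℝ) * q ^ A))) (by positivity) le_rfl
        have h2 : 2 * e * (((n : ℝ) * (n.choose A : ℝ) * q ^ A) * (A.choose a : ℝ))
            ≤ 2 * e * (K * (1 / 2) ^ (A - a)) := by
          calc _ = 2 * (e * ((n : ℝ) * (n.choose A : ℝ) * q ^ A)) * (A.choose a : ℝ) := by ring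
            _ ≤ _ := this
            _ = _ := by rw [hK]; ring
        exact le_of_mul_le_mul_left h2 (by positivity)
      · rw [if_neg haA, Nat.choose_eq_zero_of_lt (show A < a by omega)]
        simp
    · rw [if_neg hbig, mul_zero]
      split_ifs <;> positivity
  have hsum : ∑ A ∈ Ico (0 + 1) n, (if a ≤ A then K * (1 / 2) ^ (A - a) else 0) ≤ K * 2 := by
    rw [← sum_filter]
    calc _ ≤ ∑ A ∈ Ico a n, K * (1 / 2) ^ (A - a) := by
          refine sum_le_sum_of_subset_of_nonneg ?_ (fun _ _ _ => by positivity)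
          intro A hA
          rw [mem_filter, mem_Ico] at hA
          rw [mem_Ico]
          exact ⟨hA.2, hA.1.2⟩
      _ = K * ∑ A ∈ Ico a n, ((1 : ℝ) / 2) ^ (A - a) := by rw [mul_sum]
      _ ≤ K * 2 := by
          gcongr
          exact geom_Ico a n
  rw [h0]
  have := (sum_le_sum hterm).trans hsum
  linarith

variable {V : Type*} [Fintype V] [DecidableEq V]

theorem colour_bound3 (H : SimpleGraph V) [DecidableRel H.Adj] (q : ℝ) (hq0 : 0 ≤ q) (hq1 : q ≤ 1)
    (hyp : ∀ F : SimpleGraph V, F ≤ H →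
      1 / 2 ≤ (Set.ncard {G : SimpleGraph V | Nonempty (G ≃g F)} : ℝ) * q ^ F.edgeSet.ncard)
    (hn : 2 ≤ Fintype.card V) (a b : ℕ) (c : V → Fin 3) :
    ((∑ w : V × V, colTerm H a b c w : ℕ) : ℝ) ≤
      8 * Real.exp 1 ^ 3 * q *
        ((3 * ((Fintype.card V : ℝ) * ((Fintype.card V - 1).choose a : ℝ)
          * (4 * Real.exp 1 * q) ^ a)) *
        (3 * ((Fintype.card V : ℝ) * ((Fintype.card V - 1).choose b : ℝ)
          * (4 * Real.exp 1 * q) ^ b))) := by
  classical
  set n := Fintype.card V with hnV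
  set e := Real.exp 1 with he
  have he0 : 0 < e := Real.exp_pos 1
  set d : V → ℕ := fun v => (lv H c v).card with hd
  have hdn : ∀ v, d v ≤ n - 1 := by
    intro v
    have : lv H c v ⊆ univ.erase v := by
      intro u hu
      unfold lv at hu
      rw [mem_filter] at hu
      exact mem_erase.mpr ⟨hu.2.1.ne', mem_univ _⟩
    calc (lv H c v).card ≤ (univ.erase v).card := card_le_card this
      _ = n - 1 := by rw [card_erase_of_mem (mem_univ v), card_univ]
  set κ : V → ℕ := fun v => if (d v : ℝ) ≤ 2 * e * ((n : ℝ) * q) then 0 else d v with hκ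
  have hκd : ∀ v, κ v ≤ d v := by
    intro v
    simp only [hκ]
    split_ifs
    · exact Nat.zero_le _
    · exact le_rfl
  have hf : ∀ (t : ℕ) (v : V), ((d v).choose t : ℝ) ≤ Fw n q t (κ v) := by
    intro t v
    simp only [hκ]
    by_cases hlow : (d v : ℝ) ≤ 2 * e * ((n : ℝ) * q)
    · rw [if_pos hlow]
      unfold Fw
      rw [if_pos rfl]
      exact low n (d v) t q hn (hdn v) hq0 hlow
    · rw [if_neg hlow]
      unfold Fw
      have hd0 : d v ≠ 0 := by
        intro h0
        apply hlow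
        rw [h0]
        simp only [Nat.cast_zero]
        positivity
      rw [if_neg hd0, if_pos (not_le.mp hlow)]
  set E := univ.filter (fun w : V × V => H.Adj w.1 w.2 ∧ c w.1 = 0 ∧ c w.2 = 1) with hE
  have h1 : ((∑ w : V × V, colTerm H a b c w : ℕ) : ℝ)
      = ∑ w ∈ E, ((d w.1).choose a : ℝ) * ((d w.2).choose b : ℝ) := by
    rw [hE, sum_filter]
    push_cast
    refine sum_congr rfl fun w _ => ?_
    unfold colTerm
    split_ifs <;> simp [hd]
  rw [h1]
  have hmaps : ∀ w ∈ E, (κ w.1, κ w.2) ∈ range n ×ˢ range n := by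
    intro w _
    rw [mem_product, mem_range, mem_range]
    have h2 := hκd w.1
    have h3 := hκd w.2
    have h4 := hdn w.1
    have h5 := hdn w.2
    constructor <;> omega
  set ν : ℕ → ℝ := fun A => (n : ℝ) * (n.choose A : ℝ) * q ^ A with hν
  calc ∑ w ∈ E, ((d w.1).choose a : ℝ) * ((d w.2).choose b : ℝ)
      ≤ ∑ w ∈ E, Fw n q a (κ w.1) * Fw n q b (κ w.2) := by
        refine sum_le_sum fun w _ => ?_
        exact mul_le_mul (hf a w.1) (hf b w.2) (by positivity) (Fw_nonneg n q hq0 _ _)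
    _ = ∑ z ∈ range n ×ˢ range n, ∑ w ∈ E.filter (fun w => (κ w.1, κ w.2) = z),
          Fw n q a (κ w.1) * Fw n q b (κ w.2) := (sum_fiberwise_of_maps_to hmaps _).symm
    _ ≤ ∑ z ∈ range n ×ˢ range n,
          8 * e ^ 3 * q * ((ν z.1 * Fw n q a z.1) * (ν z.2 * Fw n q b z.2)) := by
        refine sum_le_sum fun z _ => ?_
        set M := E.filter (fun w => (κ w.1, κ w.2) = z) with hM
        have e1 : ∑ w ∈ M, Fw n q a (κ w.1) * Fw n q b (κ w.2)
            = (M.card : ℝ) * (Fw n q a z.1 * Fw n q b z.2) := by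
          have e0 : ∑ w ∈ M, Fw n q a (κ w.1) * Fw n q b (κ w.2)
              = ∑ _w ∈ M, Fw n q a z.1 * Fw n q b z.2 :=
            sum_congr rfl (fun w hw => by
              have := (mem_filter.mp hw).2
              rw [← this])
          rw [e0, sum_const, nsmul_eq_mul]
        rw [e1]
        have hb := fat_edge_bound H q hq0 hq1 hyp c (lv H c)
          (fun v u hu => by
            unfold lv at hu
            exact (mem_filter.mp hu).2) M z.1 z.2
          (fun w hw => by
            have hw1 := mem_filter.mp hw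
            have hw2 := (mem_filter.mp hw1.1).2
            have hz := hw1.2
            refine ⟨hw2.1, hw2.2.1, hw2.2.2, ?_, ?_⟩
            · rw [← hz]; exact hκd w.1
            · rw [← hz]; exact hκd w.2)
        have hFF : 0 ≤ Fw n q a z.1 * Fw n q b z.2 :=
          mul_nonneg (Fw_nonneg n q hq0 _ _) (Fw_nonneg n q hq0 _ _)
        calc (M.card : ℝ) * (Fw n q a z.1 * Fw n q b z.2)
            ≤ (8 * e ^ 3 * (ν z.1 * ν z.2 * q)) * (Fw n q a z.1 * Fw n q b z.2) :=
              mul_le_mul_of_nonneg_right hb hFF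
          _ = _ := by ring
    _ = 8 * e ^ 3 * q * ((∑ A ∈ range n, ν A * Fw n q a A) * (∑ B ∈ range n, ν B * Fw n q b B)) := by
        rw [← mul_sum, sum_product, sum_mul_sum]
    _ ≤ _ := by
        have hA := class_sum n q hn hq0 a
        have hB := class_sum n q hn hq0 b
        have hA0 : 0 ≤ ∑ A ∈ range n, ν A * Fw n q a A :=
          sum_nonneg fun A _ => mul_nonneg (by positivity) (Fw_nonneg n q hq0 _ _)
        have hB0 : 0 ≤ ∑ B ∈ range n, ν B * Fw n q b B :=
          sum_nonneg fun A _ => mul_nonneg (by positivity) (Fw_nonneg n q hq0 _ _)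
        have hpre : 0 ≤ 8 * e ^ 3 * q := by positivity
        refine mul_le_mul_of_nonneg_left ?_ hpre
        exact mul_le_mul hA hB hB0 (by positivity)

end Vale.Agent.P064
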