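import Mathlib
import Vale.Agent.P064.DSEmb
import Vale.Agent.P064.DoubleSum
import Vale.Agent.P064.ForestLog

open Finset

namespace Vale.Agent.P064

/-- forests all of whose components are double stars (trees of diameter at most three) -/
def IsDSForest {V : Type} (F : SimpleGraph V) : Prop :=
  ∃ C : Set V, (∀ x, x ∉ C → ∀ y z, F.Adj x y → F.Adj x z → y = z) ∧
    (∀ x ∈ C, ∀ y ∈ C, ∀ z ∈ C, F.Adj x y → F.Adj x z → y = z)

theorem IsDSForest.anti {V : Type} {F F' : SimpleGraph V} (h : IsDSForest F) (hle : F' ≤ F) :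
    IsDSForest F' := by
  obtain ⟨C, h1, h2⟩ := h
  exact ⟨C, fun x hx y z hy hz => h1 x hx y z (hle hy) (hle hz),
    fun x hx y hy z hz h3 h4 => h2 x hx y hy z hz (hle h3) (hle h4)⟩

theorem exists_spine {V : Type} (F : SimpleGraph V) (hF : IsDSForest F) {x y : V}
    (hxy : F.Adj x y) :
    ∃ u v, F.Adj u v ∧ (∀ s, F.Adj u s → s ≠ v → ∀ z, F.Adj s z → z = u) ∧
      (∀ t, F.Adj v t → t ≠ u → ∀ z, F.Adj t z → z = v) := by
  classical
  obtain ⟨C, h1, h2⟩ := hF
  have good : ∀ u v, F.Adj u v → (∀ s ∈ C, F.Adj u s → s = v) → (∀ t ∈ C, F.Adj v t → t = u) →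
      ∃ u v, F.Adj u v ∧ (∀ s, F.Adj u s → s ≠ v → ∀ z, F.Adj s z → z = u) ∧
      (∀ t, F.Adj v t → t ≠ u → ∀ z, F.Adj t z → z = v) := by
    intro u v huv hu hv
    refine ⟨u, v, huv, ?_, ?_⟩
    · intro s hs hsv z hz
      have hsC : s ∉ C := fun h => hsv (hu s h hs)
      exact h1 s hsC z u hz hs.symm
    · intro t ht htu z hz
      have htC : t ∉ C := fun h => htu (hv t h ht)
      exact h1 t htC z v hz ht.symm
  have cond : ∀ a b, F.Adj a b → (a ∉ C ∨ b ∈ C) → ∀ s ∈ C, F.Adj a s → s = b := by
    intro a b hab h s hs has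
    by_cases ha : a ∈ C
    · rcases h with h | h
      · exact absurd ha h
      · exact h2 a ha s hs b h has hab
    · exact h1 a ha s b has hab
  have half : ∀ a b, F.Adj a b → a ∈ C → b ∉ C →
      ∃ u v, F.Adj u v ∧ (∀ s, F.Adj u s → s ≠ v → ∀ z, F.Adj s z → z = u) ∧
      (∀ t, F.Adj v t → t ≠ u → ∀ z, F.Adj t z → z = v) := by
    intro a b hab ha hb
    by_cases hex : ∃ b' ∈ C, F.Adj a b'
    · obtain ⟨b', hb', hab'⟩ := hex
      exact good a b' hab' (cond a b' hab' (Or.inr hb')) (cond b' a hab'.symm (Or.inr ha))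
    · refine good a b hab (fun s hs has => absurd ⟨s, hs, has⟩ hex)
        (cond b a hab.symm (Or.inl hb))
  by_cases hx : x ∈ C
  · by_cases hy : y ∈ C
    · exact good x y hxy (cond x y hxy (Or.inr hy)) (cond y x hxy.symm (Or.inr hx))
    · exact half x y hxy hx hy
  · by_cases hy : y ∈ C
    · exact half y x hxy.symm hy hx
    · exact good x y hxy (cond x y hxy (Or.inl hx)) (cond y x hxy.symm (Or.inl hy))

theorem emb_bound_ds {n : ℕ} (H : SimpleGraph (Fin n)) [DecidableRel H.Adj] (p : ℝ) (hp : 0 ≤ p)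
    (hds : ∀ a b : ℕ, (a.factorial : ℝ) * (b.factorial : ℝ) *
      ((∑ w : Fin n × Fin n, baseTerm H a b w : ℕ) : ℝ) ≤ (n : ℝ) ^ (a + b + 2) * p ^ (a + b + 1)) :
    ∀ (m : ℕ) (F : SimpleGraph (Fin n)) (W : Finset (Fin n)), IsDSForest F →
      F.edgeSet.ncard = m → (∀ a b, F.Adj a b → a ∈ W) →
      (embCount F H W : ℝ) ≤ (n : ℝ) ^ W.card * p ^ m := by
  classical
  intro m
  induction m using Nat.strong_induction_on with
  | _ m ih =>
    intro F W hF hm hW
    by_cases hne : ∃ a b, F.Adj a b
    · obtain ⟨x0, y0, hxy0⟩ := hne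
      obtain ⟨u, v, huv, hLu, hLv⟩ := exists_spine F hF hxy0
      set S : Finset (Fin n) := (F.neighborSet u).toFinset.erase v with hS
      set T : Finset (Fin n) := (F.neighborSet v).toFinset.erase u with hT
      have hSmem : ∀ s, s ∈ S ↔ s ≠ v ∧ F.Adj u s := by intro s; simp [hS]
      have hTmem : ∀ s, s ∈ T ↔ s ≠ u ∧ F.Adj v s := by intro s; simp [hT]
      set X : Finset (Fin n) := insert u (insert v (S ∪ T)) with hX
      have hdisj : Disjoint S T := by
        rw [Finset.disjoint_left]
        intro s hs ht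
        have h1 := (hSmem s).mp hs
        have h2 := (hTmem s).mp ht
        exact huv.ne (hLu s h1.2 h1.1 v h2.2.symm).symm
      have hvST : v ∉ S ∪ T := by
        intro h
        rcases mem_union.mp h with h | h
        · exact ((hSmem v).mp h).1 rfl
        · exact ((hTmem v).mp h).2.ne rfl
      have huST : u ∉ insert v (S ∪ T) := by
        intro h
        rcases mem_insert.mp h with h | h
        · exact huv.ne h
        · rcases mem_union.mp h with h | h
          · exact ((hSmem u).mp h).2.ne rfl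
          · exact ((hTmem u).mp h).1 rfl
      have hXc : X.card = S.card + T.card + 2 := by
        rw [hX, card_insert_of_notMem huST, card_insert_of_notMem hvST,
          card_union_of_disjoint hdisj]
      set F1 := F.deleteIncidenceSet u with hF1
      set F' := F1.deleteIncidenceSet v with hF'
      have hF'le : F' ≤ F := (F1.deleteIncidenceSet_le v).trans (F.deleteIncidenceSet_le u)
      have hF'ds : IsDSForest F' := hF.anti hF'le
      have hN1 : (F.neighborSet u).ncard = S.card + 1 := by
        rw [Set.ncard_eq_toFinset_card', hS, card_erase_of_mem (by simpa using huv)]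
        have : 0 < (F.neighborSet u).toFinset.card := card_pos.mpr ⟨v, by simpa using huv⟩
        omega
      have hN2 : (F1.neighborSet v).ncard = T.card := by
        rw [← Set.ncard_coe_finset T]
        congr 1
        ext z
        rw [SimpleGraph.mem_neighborSet, hF1, SimpleGraph.deleteIncidenceSet_adj, Finset.mem_coe,
          hTmem]
        constructor
        · rintro ⟨h1, -, h3⟩
          exact ⟨h3, h1⟩
        · rintro ⟨h1, h2⟩
          exact ⟨h2, huv.ne', h1⟩
      have hsplit1 : F.edgeSet.ncard = F1.edgeSet.ncard + (F.neighborSet u).ncard :=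
        edges_split F u
      have hsplit2 : F1.edgeSet.ncard = F'.edgeSet.ncard + (F1.neighborSet v).ncard :=
        edges_split F1 v
      rw [hm, hN1] at hsplit1
      rw [hN2] at hsplit2
      set m' := F'.edgeSet.ncard with hm'
      have hXW : X ⊆ W := by
        intro z hz
        rcases mem_insert.mp hz with rfl | hz
        · exact hW _ _ huv
        rcases mem_insert.mp hz with rfl | hz
        · exact hW _ _ huv.symm
        rcases mem_union.mp hz with hz | hz
        · exact hW _ _ ((hSmem z).mp hz).2.symm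
        · exact hW _ _ ((hTmem z).mp hz).2.symm
      have hW' : ∀ r t, F'.Adj r t → r ∈ W \ X := by
        intro r t hrt
        rw [hF', SimpleGraph.deleteIncidenceSet_adj, hF1, SimpleGraph.deleteIncidenceSet_adj] at hrt
        obtain ⟨⟨h1, h2, h3⟩, h4, h5⟩ := hrt
        refine mem_sdiff.mpr ⟨hW _ _ h1, fun hr => ?_⟩
        rcases mem_insert.mp hr with hr | hr
        · exact h2 hr
        rcases mem_insert.mp hr with hr | hr
        · exact h4 hr
        rcases mem_union.mp hr with hr | hr
        · have := (hSmem r).mp hr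
          exact h3 (hLu r this.2 this.1 t h1)
        · have := (hTmem r).mp hr
          exact h5 (hLv r this.2 this.1 t h1)
      have ih' := ih m' (by omega) F' (W \ X) hF'ds rfl hW'
      have hmul := embCount_peel F F' H W X hXW hF'le
      have hse := dsEmb_le F H u v S T X (by simp [hX]) (by simp [hX])
        (fun s hs => by simp [hX, hs]) (fun s hs => by simp [hX, hs])
        (fun z hz => by simpa [hX] using hz) huv
        (fun s hs => ((hSmem s).mp hs).2) (fun s hs => ((hTmem s).mp hs).2)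
        (fun h => ((hSmem v).mp h).1 rfl) (fun h => ((hTmem u).mp h).1 rfl)
      have hst := hds S.card T.card
      have hse' : (embCount F H X : ℝ) ≤ (n : ℝ) ^ (S.card + T.card + 2) * p ^ (S.card + T.card + 1) := by
        refine le_trans ?_ hst
        exact_mod_cast hse
      have hcardW : (W \ X).card + (S.card + T.card + 2) = W.card := by
        have h1 := card_sdiff_add_card_eq_card hXW
        rw [hXc] at h1
        exact h1
      calc (embCount F H W : ℝ)
          ≤ (embCount F' H (W \ X) : ℝ) * (embCount F H X : ℝ) := by exact_mod_cast hmul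
        _ ≤ ((n : ℝ) ^ (W \ X).card * p ^ m') *
              ((n : ℝ) ^ (S.card + T.card + 2) * p ^ (S.card + T.card + 1)) := by
            gcongr
        _ = (n : ℝ) ^ W.card * p ^ m := by
            rw [← hcardW, hsplit1, hsplit2]; ring
    · have hbot : F = ⊥ := by
        ext u v
        simp only [SimpleGraph.bot_adj, iff_false]
        exact fun h => hne ⟨u, v, h⟩
      have hm0 : m = 0 := by
        rw [← hm, hbot]; simp
      rw [hm0, pow_zero, mul_one]
      have h1 : embCount F H W ≤ n ^ W.card := by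
        calc embCount F H W ≤ Set.ncard (Set.univ : Set ({v // v ∈ W} ↪ Fin n)) :=
              Set.ncard_le_ncard (Set.subset_univ _) (Set.toFinite _)
          _ = n.descFactorial W.card := by
              rw [Set.ncard_univ, Nat.card_eq_fintype_card, Fintype.card_embedding_eq,
                Fintype.card_coe, Fintype.card_fin]
          _ ≤ n ^ W.card := Nat.descFactorial_le_pow _ _
      exact_mod_cast h1

theorem base_bound (n : ℕ) (H : SimpleGraph (Fin n)) [DecidableRel H.Adj] (q : ℝ) (hq0 : 0 ≤ q)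
    (hq1 : q ≤ 1)
    (hyp : ∀ F : SimpleGraph (Fin n), F ≤ H →
      1 / 2 ≤ (Set.ncard {G : SimpleGraph (Fin n) | Nonempty (G ≃g F)} : ℝ) * q ^ F.edgeSet.ncard)
    (a b : ℕ) :
    (a.factorial : ℝ) * (b.factorial : ℝ) * ((∑ w : Fin n × Fin n, baseTerm H a b w : ℕ) : ℝ)
      ≤ (n : ℝ) ^ (a + b + 2) * (13100 * q) ^ (a + b + 1) := by
  rcases Nat.lt_or_ge n 2 with hn | hn
  · have hz : ∑ w : Fin n × Fin n, baseTerm H a b w = 0 := by
      refine Finset.sum_eq_zero fun w _ => ?_
      unfold baseTerm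
      rw [if_neg]
      intro h
      apply h.ne
      apply Fin.ext
      have h1 := w.1.isLt
      have h2 := w.2.isLt
      omega
    rw [hz]
    simp only [Nat.cast_zero, mul_zero]
    positivity
  set e := Real.exp 1 with he
  have he0 : 0 < e := Real.exp_pos 1
  have he1 : e < 2.7182818286 := Real.exp_one_lt_d9
  have he2 : e ^ 2 ≤ 7.39 := by nlinarith
  have he3 : e ^ 3 ≤ 20.09 := by
    calc e ^ 3 = e ^ 2 * e := by ring
      _ ≤ 7.39 * 2.7182818286 := by gcongr
      _ ≤ 20.09 := by norm_num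
  have h648 : 648 * e ^ 3 ≤ 13100 := by linarith
  have h12 : 12 * e ≤ 13100 := by linarith
  obtain ⟨c, hc⟩ := exists_colouring3 H a b
  have hcb := colour_bound3 H q hq0 hq1 hyp (by rw [Fintype.card_fin]; exact hn) a b c
  rw [Fintype.card_fin] at hcb
  have hc' : ((∑ w : Fin n × Fin n, baseTerm H a b w : ℕ) : ℝ)
      ≤ 3 ^ (a + b + 2) * ((∑ w : Fin n × Fin n, colTerm H a b c w : ℕ) : ℝ) := by
    exact_mod_cast hc
  have hfac : ∀ t : ℕ, ((t.factorial : ℝ) * ((n - 1).choose t : ℝ)) ≤ (n : ℝ) ^ t := by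
    intro t
    have h1 : t.factorial * (n - 1).choose t ≤ n ^ t := by
      rw [← Nat.descFactorial_eq_factorial_mul_choose]
      exact (Nat.descFactorial_le_pow _ _).trans (Nat.pow_le_pow_left (Nat.sub_le n 1) _)
    exact_mod_cast h1
  calc (a.factorial : ℝ) * (b.factorial : ℝ) * ((∑ w : Fin n × Fin n, baseTerm H a b w : ℕ) : ℝ)
      ≤ (a.factorial : ℝ) * (b.factorial : ℝ) * (3 ^ (a + b + 2) * (8 * e ^ 3 * q *
        ((3 * ((n : ℝ) * ((n - 1).choose a : ℝ) * (4 * e * q) ^ a)) *
        (3 * ((n : ℝ) * ((n - 1).choose b : ℝ) * (4 * e * q) ^ b))))) := by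
        have := hc'.trans (mul_le_mul_of_nonneg_left hcb (by positivity))
        gcongr
    _ = (648 * e ^ 3 * q) * (n : ℝ) ^ 2 * (((a.factorial : ℝ) * ((n - 1).choose a : ℝ)) *
          ((b.factorial : ℝ) * ((n - 1).choose b : ℝ))) * ((12 * e * q) ^ a * (12 * e * q) ^ b) := by
        rw [show (12 * e * q) = 3 * (4 * e * q) by ring, mul_pow 3 (4 * e * q) a,
          mul_pow 3 (4 * e * q) b]
        ring
    _ ≤ (13100 * q) * (n : ℝ) ^ 2 * ((n : ℝ) ^ a * (n : ℝ) ^ b)
          * ((13100 * q) ^ a * (13100 * q) ^ b) := by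
        have h1 : 648 * e ^ 3 * q ≤ 13100 * q := mul_le_mul_of_nonneg_right h648 hq0
        have h2 : 12 * e * q ≤ 13100 * q := mul_le_mul_of_nonneg_right h12 hq0
        have h3 := hfac a
        have h4 := hfac b
        gcongr
    _ = _ := by ring

theorem ds_forest_case (n : ℕ) (H : SimpleGraph (Fin n)) (q : ℝ) (hq0 : 0 ≤ q) (hq1 : q ≤ 1)
    (hyp : ∀ F : SimpleGraph (Fin n), F ≤ H →
      1 / 2 ≤ (subCount ⊤ F : ℝ) * q ^ F.edgeSet.ncard)
    (F : SimpleGraph (Fin n)) (hF : IsDSForest F) :
    (subCount H F : ℝ) ≤ (subCount ⊤ F : ℝ) * (min 1 (97000 * q)) ^ F.edgeSet.ncard := by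
  classical
  have htriv : (subCount H F : ℝ) ≤ (subCount ⊤ F : ℝ) := by exact_mod_cast subCount_le_top H F
  rcases le_or_gt 1 (97000 * q) with hL | hL
  · rw [min_eq_left hL, one_pow, mul_one]; exact htriv
  rw [min_eq_right hL.le]
  have hyp' : ∀ F : SimpleGraph (Fin n), F ≤ H →
      1 / 2 ≤ (Set.ncard {G : SimpleGraph (Fin n) | Nonempty (G ≃g F)} : ℝ)
        * q ^ F.edgeSet.ncard := by
    intro F' hF'
    have := hyp F' hF'
    simpa [subCount] using this
  have hp0 : (0 : ℝ) ≤ 13100 * q := by positivity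
  have hC := count_of_emb n H F (13100 * q) hp0 (fun W hW =>
    emb_bound_ds H (13100 * q) hp0 (base_bound n H q hq0 hq1 hyp') _ F W hF rfl hW)
  refine hC.trans ?_
  have he0 : 0 < Real.exp 1 := Real.exp_pos 1
  have he1 : Real.exp 1 < 2.7182818286 := Real.exp_one_lt_d9
  have he2 : Real.exp 1 ^ 2 ≤ 7.39 := by nlinarith
  refine mul_le_mul_of_nonneg_left (pow_le_pow_left₀ (by positivity) ?_ _) (by positivity)
  calc Real.exp 1 ^ 2 * (13100 * q) ≤ 7.39 * (13100 * q) := by gcongr
    _ ≤ 97000 * q := by nlinarith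

end Vale.Agent.P064
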