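import Mathlib
import Vale.Agent.P064.DSForest

namespace Vale.Agent.P064

/-- the class of double-star forests is the class of graphs without a non-backtracking walk
with four edges -/
theorem isDSForest_iff {V : Type} (F : SimpleGraph V) :
    IsDSForest F ↔ ∀ a b c d e : V, F.Adj a b → F.Adj b c → F.Adj c d → F.Adj d e →
      a ≠ c → b ≠ d → c ≠ e → False := by
  constructor
  · rintro ⟨C, h1, h2⟩ a b c d e hab hbc hcd hde hac hbd hce
    have hb : b ∈ C := by
      by_contra hb
      exact hac (h1 b hb a c hab.symm hbc)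
    have hc : c ∈ C := by
      by_contra hc
      exact hbd (h1 c hc b d hbc.symm hcd)
    have hd : d ∈ C := by
      by_contra hd
      exact hce (h1 d hd c e hcd.symm hde)
    exact hbd (h2 c hc b hb d hd hbc.symm hcd)
  · intro h
    refine ⟨{x | ∃ y z, F.Adj x y ∧ F.Adj x z ∧ y ≠ z}, ?_, ?_⟩
    · intro x hx y z hy hz
      by_contra hne
      exact hx ⟨y, z, hy, hz, hne⟩
    · rintro x - y ⟨y1, y2, hy1, hy2, hy12⟩ z ⟨z1, z2, hz1, hz2, hz12⟩ hxy hxz
      by_contra hyz
      obtain ⟨a, ha, hax⟩ : ∃ a, F.Adj y a ∧ a ≠ x := by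
        by_cases h1 : y1 = x
        · exact ⟨y2, hy2, fun h2 => hy12 (h1.trans h2.symm)⟩
        · exact ⟨y1, hy1, h1⟩
      obtain ⟨e, he, hex⟩ : ∃ e, F.Adj z e ∧ e ≠ x := by
        by_cases h1 : z1 = x
        · exact ⟨z2, hz2, fun h2 => hz12 (h1.trans h2.symm)⟩
        · exact ⟨z1, hz1, h1⟩
      exact h a y x z e ha.symm hxy.symm hxz he hax hyz hex.symm

end Vale.Agent.P064
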